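import Mathlib

/-!
The algebraic identity behind the affine maximal equation for `u = √(ψ² + t²)`.
-/

namespace Vale.Agent.P252

/-- logarithmic derivative (w.r.t. `log ρ`, times one half) of `K`. -/
noncomputable def ef (k a b : ℝ) : ℝ := -(k + 2) * a * (2 * a + k + 2 * b - 1) / (2 * a + k)

/-- right-hand side for `a` in logarithmic time. -/
noncomputable def fa (a b : ℝ) : ℝ := a * (1 + b - a)

/-- right-hand side for `b` in logarithmic time. -/
noncomputable def fb (k a b : ℝ) : ℝ :=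
  b * (k + a - k * b + (k + 3) * a * (2 * b - 1) / (2 * a + k))

/-- derivative of `ef` along the flow. -/
noncomputable def ed (k a b : ℝ) : ℝ :=
  -(k + 2) * ((2 * a + k + 2 * b - 1) / (2 * a + k) + a * (2 / (2 * a + k))
    - a * (2 * a + k + 2 * b - 1) * 2 / (2 * a + k) ^ 2) * fa a b
  + (-(k + 2) * a * 2 / (2 * a + k)) * fb k a b

lemma pde_core (k a b c U : ℝ) (hs : 2 * a + k ≠ 0) :
    (k - 1) * b * ((k + 2) * U * a * c + U ^ 2 * ef k a b)
    + (((k + 2) * U * a * c + U ^ 2 * ef k a b) + (k + 2) * k * a ^ 2 * c ^ 2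
      + (k + 2) * U * a * c * (a + b - 1) + 2 * (k + 2) * U * a * c * ef k a b
      + U ^ 2 * (ef k a b ^ 2 - 2 * ef k a b + ed k a b))
    + 2 * a * (U - c) * ((k + 2) * k * a * c + (k + 2) * U * ef k a b)
    + ((k + 2) * U + (k + 2) * k * (U - c)) * a * ((a + b) * U - a * c) = 0 := by
  unfold ed fa fb ef
  field_simp
  ring

/-- The identity in the form needed: here `c = ψ²`, `q = ψψ' = a c/(2ρ)`, `U = u²`,
`M = K u^k`. -/
lemma pde_alg (k a b c u ρ M q : ℝ) (hs : 2 * a + k ≠ 0) (hu : u ≠ 0) (hρ : ρ ≠ 0)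
    (hc : c ≠ 0) (hq : q = a * c / (2 * ρ)) :
    (k - 1) * (c * q * b / u ^ 4) * (M * (ef k a b / (2 * ρ) * u ^ 2 + (k + 2) * q))
    + (q / u) * ((q / u * (a + b - a * c / u ^ 2)) * ((k + 2) * M * (1 + k * (u ^ 2 - c) / u ^ 2))
      + 2 * (q * (u ^ 2 - c) * ((k + 2) * M * (ef k a b + k * a * c / u ^ 2)) / u ^ 3)
      + c / u ^ 3 * (M * (ef k a b / (2 * ρ) * u ^ 2 + (k + 2) * q)
        + M * ((ef k a b + k * a * c / u ^ 2) * (ef k a b * u ^ 2 + (k + 2) * a * c)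
        + (ed k a b - 2 * ef k a b) * u ^ 2 + 2 * ef k a b * a * c
          + (k + 2) * a * c * (a + b - 1)) / (2 * ρ))) = 0 := by
  have h := pde_core k a b c (u ^ 2) hs
  subst hq
  have h2 : (k - 1) * (c * (a * c / (2 * ρ)) * b / u ^ 4) *
      (M * (ef k a b / (2 * ρ) * u ^ 2 + (k + 2) * (a * c / (2 * ρ))))
    + ((a * c / (2 * ρ)) / u) * (((a * c / (2 * ρ)) / u * (a + b - a * c / u ^ 2)) *
      ((k + 2) * M * (1 + k * (u ^ 2 - c) / u ^ 2))
      + 2 * ((a * c / (2 * ρ)) * (u ^ 2 - c) *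
        ((k + 2) * M * (ef k a b + k * a * c / u ^ 2)) / u ^ 3)
      + c / u ^ 3 * (M * (ef k a b / (2 * ρ) * u ^ 2 + (k + 2) * (a * c / (2 * ρ)))
        + M * ((ef k a b + k * a * c / u ^ 2) * (ef k a b * u ^ 2 + (k + 2) * a * c)
        + (ed k a b - 2 * ef k a b) * u ^ 2 + 2 * ef k a b * a * c
          + (k + 2) * a * c * (a + b - 1)) / (2 * ρ)))
      = (M * a * c ^ 2 / (4 * ρ ^ 2 * u ^ 6)) * ((k - 1) * b * ((k + 2) * u ^ 2 * a * c +
        (u ^ 2) ^ 2 * ef k a b)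
    + (((k + 2) * u ^ 2 * a * c + (u ^ 2) ^ 2 * ef k a b) + (k + 2) * k * a ^ 2 * c ^ 2
      + (k + 2) * u ^ 2 * a * c * (a + b - 1) + 2 * (k + 2) * u ^ 2 * a * c * ef k a b
      + (u ^ 2) ^ 2 * (ef k a b ^ 2 - 2 * ef k a b + ed k a b))
    + 2 * a * (u ^ 2 - c) * ((k + 2) * k * a * c + (k + 2) * u ^ 2 * ef k a b)
    + ((k + 2) * u ^ 2 + (k + 2) * k * (u ^ 2 - c)) * a * ((a + b) * u ^ 2 - a * c)) := by
    generalize ef k a b = e
    generalize ed k a b = d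
    field_simp
    ring
  rw [h2, h, mul_zero]

end Vale.Agent.P252
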