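import Mathlib

/-!
The averaging operator `avg j f ρ = ∫₀¹ τ^j f(ρ τ²) dτ` and its regularity.
-/

namespace Vale.Agent.P252

open Filter Topology Set MeasureTheory
open scoped ContDiff

/-- `avg j f ρ = ∫₀¹ τ^j f(ρ τ²) dτ`. -/
noncomputable def avg (j : ℕ) (f : ℝ → ℝ) (ρ : ℝ) : ℝ :=
  ∫ τ in (0 : ℝ)..1, τ ^ j * f (ρ * τ ^ 2)

/-- clamp to `[-r, r]`. -/
def clamp (r x : ℝ) : ℝ := max (-r) (min r x)

lemma continuous_clamp (r : ℝ) : Continuous (clamp r) := by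
  unfold clamp
  fun_prop

lemma clamp_of_mem {r x : ℝ} (h : x ∈ Icc (-r) r) : clamp r x = x := by
  unfold clamp
  rw [min_eq_right h.2, max_eq_right h.1]

lemma clamp_mem {r x : ℝ} (hr : 0 ≤ r) : clamp r x ∈ Icc (-r) r := by
  unfold clamp
  refine ⟨le_max_left _ _, max_le (by linarith) (min_le_left _ _)⟩

lemma mul_sq_mem {r ρ τ : ℝ} (hρ : ρ ∈ Icc (-r) r) (hτ : τ ∈ Icc (0 : ℝ) 1) :
    ρ * τ ^ 2 ∈ Icc (-r) r := by
  have h1 : 0 ≤ τ ^ 2 := sq_nonneg _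
  have h2 : τ ^ 2 ≤ 1 := by
    have := hτ.1
    have := hτ.2
    nlinarith
  rw [mem_Icc, ← abs_le] at hρ ⊢
  rw [abs_mul, abs_of_nonneg h1]
  have := abs_nonneg ρ
  nlinarith

lemma continuous_avg {f : ℝ → ℝ} (hf : Continuous f) (j : ℕ) : Continuous (avg j f) := by
  unfold avg
  apply intervalIntegral.continuous_parametric_intervalIntegral_of_continuous'
  fun_prop

lemma avg_congr {f g : ℝ → ℝ} {r : ℝ} (h : ∀ x ∈ Icc (-r) r, f x = g x) (j : ℕ) {ρ : ℝ}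
    (hρ : ρ ∈ Icc (-r) r) : avg j f ρ = avg j g ρ := by
  unfold avg
  apply intervalIntegral.integral_congr
  intro τ hτ
  rw [uIcc_of_le zero_le_one] at hτ
  simp only []
  rw [h _ (mul_sq_mem hρ hτ)]

lemma exists_r {δ ρ : ℝ} (hρ : ρ ∈ Ioo (-δ) δ) : ∃ r, 0 < r ∧ r < δ ∧ ρ ∈ Ioo (-r) r := by
  have h := abs_lt.2 hρ
  have h0 := abs_nonneg ρ
  refine ⟨(|ρ| + δ) / 2, by linarith, by linarith, ?_⟩
  rw [mem_Ioo, ← abs_lt]
  linarith

lemma continuousOn_avg {f : ℝ → ℝ} {δ : ℝ} (hf : ContinuousOn f (Ioo (-δ) δ)) (j : ℕ) :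
    ContinuousOn (avg j f) (Ioo (-δ) δ) := by
  intro ρ hρ
  obtain ⟨r, hr0, hrδ, hρr⟩ := exists_r hρ
  have hsub : Icc (-r) r ⊆ Ioo (-δ) δ := Icc_subset_Ioo (by linarith) hrδ
  have hc : Continuous fun x => f (clamp r x) :=
    hf.comp_continuous (continuous_clamp r) fun x => hsub (clamp_mem hr0.le)
  have h1 := continuous_avg hc j
  have h2 : avg j f =ᶠ[𝓝 ρ] avg j fun x => f (clamp r x) := by
    filter_upwards [isOpen_Ioo.mem_nhds hρr] with x hx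
    apply avg_congr (r := r) _ _ (Ioo_subset_Icc_self hx)
    intro y hy
    rw [clamp_of_mem hy]
  exact (h1.continuousAt.congr h2.symm).continuousWithinAt

lemma hasDerivAt_avg {f f' : ℝ → ℝ} {δ : ℝ} (hf : ∀ x ∈ Ioo (-δ) δ, HasDerivAt f (f' x) x)
    (hf' : ContinuousOn f' (Ioo (-δ) δ)) (j : ℕ) {ρ : ℝ} (hρ : ρ ∈ Ioo (-δ) δ) :
    HasDerivAt (avg j f) (avg (j + 2) f' ρ) ρ := by
  obtain ⟨r, hr0, hrδ, hρr⟩ := exists_r hρ
  have hsub : Icc (-r) r ⊆ Ioo (-δ) δ := Icc_subset_Ioo (by linarith) hrδ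
  obtain ⟨C, hC⟩ := isCompact_Icc.exists_bound_of_continuousOn (hf'.mono hsub)
  have hfc : ContinuousOn f (Icc (-r) r) := fun x hx =>
    (hf x (hsub hx)).continuousAt.continuousWithinAt
  have hcont : ∀ x ∈ Icc (-r) r, ContinuousOn (fun τ : ℝ => τ ^ j * f (x * τ ^ 2)) (Icc 0 1) := by
    intro x hx
    refine ContinuousOn.mul (by fun_prop) (hfc.comp (by fun_prop) fun τ hτ => mul_sq_mem hx hτ)
  have hcont' : ∀ x ∈ Icc (-r) r,
      ContinuousOn (fun τ : ℝ => τ ^ (j + 2) * f' (x * τ ^ 2)) (Icc 0 1) := by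
    intro x hx
    refine ContinuousOn.mul (by fun_prop)
      ((hf'.mono hsub).comp (by fun_prop) fun τ hτ => mul_sq_mem hx hτ)
  have hI : Set.uIoc (0 : ℝ) 1 ⊆ Icc 0 1 := by
    rw [uIoc_of_le zero_le_one]
    exact Ioc_subset_Icc_self
  have key := intervalIntegral.hasDerivAt_integral_of_dominated_loc_of_deriv_le
    (μ := volume) (a := 0) (b := 1) (bound := fun _ => C)
    (F := fun x τ => τ ^ j * f (x * τ ^ 2)) (F' := fun x τ => τ ^ (j + 2) * f' (x * τ ^ 2))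
    (x₀ := ρ) (s := Ioo (-r) r) (isOpen_Ioo.mem_nhds hρr) ?_ ?_ ?_ ?_ ?_ ?_
  · exact key.2
  · filter_upwards [isOpen_Ioo.mem_nhds hρr] with x hx
    exact ((hcont x (Ioo_subset_Icc_self hx)).mono hI).aestronglyMeasurable measurableSet_uIoc
  · apply ContinuousOn.intervalIntegrable
    rw [uIcc_of_le zero_le_one]
    exact hcont ρ (Ioo_subset_Icc_self hρr)
  · exact ((hcont' ρ (Ioo_subset_Icc_self hρr)).mono hI).aestronglyMeasurable measurableSet_uIoc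
  · refine Eventually.of_forall fun τ hτ x hx => ?_
    have hτ' := hI hτ
    have h1 := hC _ (mul_sq_mem (Ioo_subset_Icc_self hx) hτ')
    rw [norm_mul]
    have h2 : ‖τ ^ (j + 2)‖ ≤ 1 := by
      rw [norm_pow, Real.norm_of_nonneg hτ'.1]
      exact pow_le_one₀ hτ'.1 hτ'.2
    calc ‖τ ^ (j + 2)‖ * ‖f' (x * τ ^ 2)‖ ≤ 1 * C :=
          mul_le_mul h2 h1 (norm_nonneg _) zero_le_one
      _ = C := one_mul C
  · exact intervalIntegrable_const
  · refine Eventually.of_forall fun τ hτ x hx => ?_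
    have hτ' := hI hτ
    have h1 := hf _ (hsub (mul_sq_mem (Ioo_subset_Icc_self hx) hτ'))
    have h2 : HasDerivAt (fun x : ℝ => x * τ ^ 2) (1 * τ ^ 2) x := (hasDerivAt_id' x).mul_const _
    have h3 := (h1.comp x h2).const_mul (τ ^ j)
    refine h3.congr_deriv ?_
    ring

lemma contDiffOn_avg_nat {δ : ℝ} (n : ℕ) : ∀ {f : ℝ → ℝ} (_ : ContDiffOn ℝ n f (Ioo (-δ) δ))
    (j : ℕ), ContDiffOn ℝ n (avg j f) (Ioo (-δ) δ) := by
  induction n with
  | zero =>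
    intro f hf j
    rw [Nat.cast_zero, contDiffOn_zero] at *
    exact continuousOn_avg hf j
  | succ n ih =>
    intro f hf j
    rw [Nat.cast_add, Nat.cast_one, contDiffOn_succ_iff_deriv_of_isOpen isOpen_Ioo] at *
    obtain ⟨h1, -, h3⟩ := hf
    have hd : ∀ x ∈ Ioo (-δ) δ, HasDerivAt f (deriv f x) x := fun x hx =>
      ((h1 x hx).differentiableAt (isOpen_Ioo.mem_nhds hx)).hasDerivAt
    have hD : ∀ x ∈ Ioo (-δ) δ, HasDerivAt (avg j f) (avg (j + 2) (deriv f) x) x := fun x hx =>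
      hasDerivAt_avg hd h3.continuousOn j hx
    refine ⟨fun x hx => (hD x hx).differentiableAt.differentiableWithinAt, ?_, ?_⟩
    · intro h
      exact absurd h (by exact_mod_cast (WithTop.natCast_ne_top n))
    · refine (ih h3 (j + 2)).congr fun x hx => ?_
      exact (hD x hx).deriv

lemma contDiffOn_avg {δ : ℝ} {f : ℝ → ℝ} (hf : ContDiffOn ℝ ∞ f (Ioo (-δ) δ)) (j : ℕ) :
    ContDiffOn ℝ ∞ (avg j f) (Ioo (-δ) δ) := by
  rw [contDiffOn_infty] at *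
  exact fun n => contDiffOn_avg_nat n (hf n) j

/-- `f = (j+1) avg j f + 2 ρ avg (j+2) f'`. -/
lemma avg_identity {f f' : ℝ → ℝ} {δ : ℝ} (hf : ∀ x ∈ Ioo (-δ) δ, HasDerivAt f (f' x) x)
    (hf' : ContinuousOn f' (Ioo (-δ) δ)) (j : ℕ) {ρ : ℝ} (hρ : ρ ∈ Ioo (-δ) δ) :
    (j + 1) * avg j f ρ + 2 * ρ * avg (j + 2) f' ρ = f ρ := by
  obtain ⟨r, hr0, hrδ, hρr⟩ := exists_r hρ
  have hsub : Icc (-r) r ⊆ Ioo (-δ) δ := Icc_subset_Ioo (by linarith) hrδ
  have hρ' := Ioo_subset_Icc_self hρr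
  have hfc : ContinuousOn f (Icc (-r) r) := fun x hx =>
    (hf x (hsub hx)).continuousAt.continuousWithinAt
  have c1 : ContinuousOn (fun τ : ℝ => τ ^ j * f (ρ * τ ^ 2)) (uIcc 0 1) := by
    rw [uIcc_of_le zero_le_one]
    exact ContinuousOn.mul (by fun_prop) (hfc.comp (by fun_prop) fun τ hτ => mul_sq_mem hρ' hτ)
  have c2 : ContinuousOn (fun τ : ℝ => τ ^ (j + 2) * f' (ρ * τ ^ 2)) (uIcc 0 1) := by
    rw [uIcc_of_le zero_le_one]
    exact ContinuousOn.mul (by fun_prop)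
      ((hf'.mono hsub).comp (by fun_prop) fun τ hτ => mul_sq_mem hρ' hτ)
  have hder : ∀ τ ∈ uIcc (0 : ℝ) 1, HasDerivAt (fun τ : ℝ => τ ^ (j + 1) * f (ρ * τ ^ 2))
      ((j + 1) * (τ ^ j * f (ρ * τ ^ 2)) + 2 * ρ * (τ ^ (j + 2) * f' (ρ * τ ^ 2))) τ := by
    intro τ hτ
    rw [uIcc_of_le zero_le_one] at hτ
    have h1 := hf _ (hsub (mul_sq_mem hρ' hτ))
    have h2 : HasDerivAt (fun τ : ℝ => ρ * τ ^ 2) (ρ * (2 * τ)) τ := by
      have := (hasDerivAt_pow 2 τ).const_mul ρ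
      refine this.congr_deriv ?_
      norm_num
    have h3 := (hasDerivAt_pow (j + 1) τ).mul (h1.comp τ h2)
    have h4 : HasDerivAt (fun τ : ℝ => τ ^ (j + 1) * f (ρ * τ ^ 2)) _ τ := h3
    refine h4.congr_deriv ?_
    simp only [Function.comp_apply, Nat.add_sub_cancel]
    push_cast
    ring
  have hint : IntervalIntegrable (fun τ : ℝ => (j + 1) * (τ ^ j * f (ρ * τ ^ 2)) +
      2 * ρ * (τ ^ (j + 2) * f' (ρ * τ ^ 2))) volume 0 1 :=
    ((c1.intervalIntegrable.const_mul _).add (c2.intervalIntegrable.const_mul _))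
  have h5 := intervalIntegral.integral_eq_sub_of_hasDerivAt hder hint
  rw [intervalIntegral.integral_add (c1.intervalIntegrable.const_mul _)
    (c2.intervalIntegrable.const_mul _), intervalIntegral.integral_const_mul,
    intervalIntegral.integral_const_mul] at h5
  unfold avg
  rw [h5]
  simp

lemma avg_const (j : ℕ) (c ρ : ℝ) : avg j (fun _ => c) ρ = c / (j + 1) := by
  unfold avg
  rw [intervalIntegral.integral_mul_const, integral_pow]
  simp
  ring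

end Vale.Agent.P252
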