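import Mathlib

/-!
Linear algebra of the block matrices occurring as Hessians of functions `H(|x'|²/2, x₀)`.
-/

namespace Vale.Agent.P252

open Matrix

variable {k : ℕ}

/-- block matrix with `00` entry `δ`, `0j` entries `γ xⱼ`, `ij` entries `α δᵢⱼ + β xᵢ xⱼ`. -/
def blk (x : Fin k → ℝ) (α β γ δ : ℝ) : Matrix (Fin (k + 1)) (Fin (k + 1)) ℝ :=
  Matrix.of (Fin.cons (Fin.cons δ (fun j => γ * x j))
    (fun i => Fin.cons (γ * x i) (fun j => (if i = j then α else 0) + β * x i * x j)))

@[simp] lemma blk_zero_zero (x : Fin k → ℝ) (α β γ δ : ℝ) : blk x α β γ δ 0 0 = δ := rfl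
@[simp] lemma blk_zero_succ (x : Fin k → ℝ) (α β γ δ : ℝ) (j : Fin k) :
    blk x α β γ δ 0 j.succ = γ * x j := rfl
@[simp] lemma blk_succ_zero (x : Fin k → ℝ) (α β γ δ : ℝ) (i : Fin k) :
    blk x α β γ δ i.succ 0 = γ * x i := rfl
@[simp] lemma blk_succ_succ (x : Fin k → ℝ) (α β γ δ : ℝ) (i j : Fin k) :
    blk x α β γ δ i.succ j.succ = (if i = j then α else 0) + β * x i * x j := rfl

/-- determinant of `α I + β x xᵀ`. -/
lemma det_rank_one (x : Fin k → ℝ) (α β : ℝ) (hα : α ≠ 0) :
    α * (Matrix.of fun i j : Fin k => (if i = j then α else 0) + β * x i * x j).det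
      = α ^ k * (α + β * ∑ i, x i ^ 2) := by
  have h1 : (Matrix.of fun i j : Fin k => (if i = j then α else 0) + β * x i * x j)
      = α • (1 + Matrix.replicateCol Unit (fun i => β / α * x i) *
          Matrix.replicateRow Unit x) := by
    ext i j
    simp only [Matrix.of_apply, Matrix.smul_apply, Matrix.add_apply, Matrix.mul_apply,
      Matrix.replicateCol_apply, Matrix.replicateRow_apply, Finset.univ_unique,
      Finset.sum_singleton, smul_eq_mul, Matrix.one_apply]
    split_ifs
    · field_simp
    · field_simp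
      ring
  rw [h1, Matrix.det_smul, Matrix.det_one_add_replicateCol_mul_replicateRow]
  simp only [Fintype.card_fin, dotProduct]
  have h2 : ∑ i, x i * (β / α * x i) = β / α * ∑ i, x i ^ 2 := by
    rw [Finset.mul_sum]
    exact Finset.sum_congr rfl fun i _ => by ring
  rw [h2]
  field_simp

/-- determinant of the block matrix. -/
lemma blk_det (x : Fin k → ℝ) (α β γ δ : ℝ) (hα : α ≠ 0) (hδ : δ ≠ 0) :
    α * (blk x α β γ δ).det
      = α ^ k * ((α + β * ∑ i, x i ^ 2) * δ - γ ^ 2 * ∑ i, x i ^ 2) := by
  -- subtract multiples of row zero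
  set B : Matrix (Fin (k + 1)) (Fin (k + 1)) ℝ :=
    Matrix.of (Fin.cons (Fin.cons δ (fun j => γ * x j))
    (fun i => Fin.cons 0 (fun j => (if i = j then α else 0) + (β - γ ^ 2 / δ) * x i * x j))) with hB
  have h1 : (blk x α β γ δ).det = B.det := by
    apply Matrix.det_eq_of_forall_row_eq_smul_add_const (Fin.cons 0 fun i => γ * x i / δ) 0 rfl
    intro i j
    refine Fin.cases ?_ (fun i => ?_) i
    · refine Fin.cases ?_ (fun j => ?_) j
      · simp [hB]
      · simp [hB]
    · refine Fin.cases ?_ (fun j => ?_) j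
      · simp [hB]
        field_simp
      · simp [hB]
        field_simp
        ring
  have h2 : B.det = δ * (Matrix.of fun i j : Fin k =>
      (if i = j then α else 0) + (β - γ ^ 2 / δ) * x i * x j).det := by
    rw [Matrix.det_succ_column_zero, Fin.sum_univ_succ]
    have h3 : ∑ i : Fin k, (-1 : ℝ) ^ ((Fin.succ i : Fin (k + 1)) : ℕ) * B (Fin.succ i) 0 *
        (B.submatrix (Fin.succ i).succAbove Fin.succ).det = 0 := by
      apply Finset.sum_eq_zero
      intro i _
      simp [hB]
    rw [h3]
    have h4 : B.submatrix (Fin.succAbove 0) Fin.succ = Matrix.of fun i j : Fin k =>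
      (if i = j then α else 0) + (β - γ ^ 2 / δ) * x i * x j := by
      ext i j
      simp [hB]
    rw [h4]
    simp [hB]
  rw [h1, h2]
  have h5 := det_rank_one x α (β - γ ^ 2 / δ) hα
  calc α * (δ * (Matrix.of fun i j : Fin k =>
      (if i = j then α else 0) + (β - γ ^ 2 / δ) * x i * x j).det)
      = δ * (α * (Matrix.of fun i j : Fin k =>
      (if i = j then α else 0) + (β - γ ^ 2 / δ) * x i * x j).det) := by ring
    _ = _ := by
      rw [h5]
      field_simp
      ring

/-- product of two block matrices with the same `x`. -/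
lemma blk_mul (x : Fin k → ℝ) (α β γ δ α' β' γ' δ' : ℝ) :
    blk x α β γ δ * blk x α' β' γ' δ' =
      Matrix.of (Fin.cons (Fin.cons (δ * δ' + γ * γ' * ∑ i, x i ^ 2)
        (fun j => (δ * γ' + γ * α' + γ * β' * ∑ i, x i ^ 2) * x j))
      (fun i => Fin.cons ((γ * δ' + α * γ' + β * γ' * ∑ i, x i ^ 2) * x i)
        (fun j => (if i = j then α * α' else 0) +
          (γ * γ' + α * β' + β * α' + β * β' * ∑ i, x i ^ 2) * x i * x j))) := by
  ext i j
  rw [Matrix.mul_apply, Fin.sum_univ_succ]
  refine Fin.cases ?_ (fun i => ?_) i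
  · refine Fin.cases ?_ (fun j => ?_) j
    · simp only [blk_zero_zero, blk_zero_succ, blk_succ_zero, Matrix.of_apply, Fin.cons_zero]
      congr 1
      rw [Finset.mul_sum]
      exact Finset.sum_congr rfl fun i _ => by ring
    · simp only [blk_zero_zero, blk_zero_succ, blk_succ_succ, Matrix.of_apply, Fin.cons_zero,
        Fin.cons_succ]
      have : ∑ i : Fin k, γ * x i * ((if i = j then α' else 0) + β' * x i * x j)
          = γ * α' * x j + γ * β' * (∑ i, x i ^ 2) * x j := by
        simp only [mul_add, Finset.sum_add_distrib]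
        congr 1
        · simp
          ring
        · rw [Finset.mul_sum, Finset.sum_mul]
          exact Finset.sum_congr rfl fun i _ => by ring
      rw [this]
      ring
  · refine Fin.cases ?_ (fun j => ?_) j
    · simp only [blk_zero_zero, blk_succ_zero, blk_succ_succ, Matrix.of_apply, Fin.cons_zero,
        Fin.cons_succ]
      have : ∑ l : Fin k, ((if i = l then α else 0) + β * x i * x l) * (γ' * x l)
          = α * γ' * x i + β * γ' * (∑ i, x i ^ 2) * x i := by
        simp only [add_mul, Finset.sum_add_distrib]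
        congr 1
        · simp
          ring
        · rw [Finset.mul_sum, Finset.sum_mul]
          exact Finset.sum_congr rfl fun i _ => by ring
      rw [this]
      ring
    · simp only [blk_zero_succ, blk_succ_zero, blk_succ_succ, Matrix.of_apply, Fin.cons_zero,
        Fin.cons_succ]
      have : ∑ l : Fin k, ((if i = l then α else 0) + β * x i * x l) *
          ((if l = j then α' else 0) + β' * x l * x j)
          = (if i = j then α * α' else 0) +
          (α * β' + β * α' + β * β' * ∑ i, x i ^ 2) * x i * x j := by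
        simp only [add_mul, mul_add, Finset.sum_add_distrib]
        have e1 : ∑ l : Fin k, (if i = l then α else 0) * (if l = j then α' else 0)
            = if i = j then α * α' else 0 := by
          simp
        have e2 : ∑ l : Fin k, (if i = l then α else 0) * (β' * x l * x j)
            = α * β' * x i * x j := by
          simp
          ring
        have e3 : ∑ l : Fin k, β * x i * x l * (if l = j then α' else 0)
            = β * α' * x i * x j := by
          simp
          ring
        have e4 : ∑ l : Fin k, β * x i * x l * (β' * x l * x j)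
            = β * β' * (∑ i, x i ^ 2) * x i * x j := by
          rw [Finset.mul_sum, Finset.sum_mul, Finset.sum_mul]
          exact Finset.sum_congr rfl fun i _ => by ring
        rw [e1, e2, e3, e4]
        ring
      rw [this]
      ring

/-- explicit inverse. -/
lemma blk_inv (x : Fin k → ℝ) (α β γ δ : ℝ) (hα : α ≠ 0)
    (hΔ : (α + β * ∑ i, x i ^ 2) * δ - γ ^ 2 * ∑ i, x i ^ 2 ≠ 0) :
    (blk x α β γ δ)⁻¹ = blk x (1 / α)
      ((γ ^ 2 - β * δ) / (α * ((α + β * ∑ i, x i ^ 2) * δ - γ ^ 2 * ∑ i, x i ^ 2)))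
      (-γ / ((α + β * ∑ i, x i ^ 2) * δ - γ ^ 2 * ∑ i, x i ^ 2))
      ((α + β * ∑ i, x i ^ 2) / ((α + β * ∑ i, x i ^ 2) * δ - γ ^ 2 * ∑ i, x i ^ 2)) := by
  apply Matrix.inv_eq_right_inv
  rw [blk_mul]
  set r := ∑ i, x i ^ 2 with hr
  set Δ := (α + β * r) * δ - γ ^ 2 * r with hΔ'
  have c1 : δ * ((α + β * r) / Δ) + γ * (-γ / Δ) * r = 1 := by
    field_simp
    rw [hΔ']
    ring
  have c2 : δ * (-γ / Δ) + γ * (1 / α) + γ * ((γ ^ 2 - β * δ) / (α * Δ)) * r = 0 := by
    field_simp
    rw [hΔ']
    ring
  have c3 : γ * ((α + β * r) / Δ) + α * (-γ / Δ) + β * (-γ / Δ) * r = 0 := by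
    field_simp
    ring
  have c4 : γ * (-γ / Δ) + α * ((γ ^ 2 - β * δ) / (α * Δ)) + β * (1 / α)
      + β * ((γ ^ 2 - β * δ) / (α * Δ)) * r = 0 := by
    field_simp
    rw [hΔ']
    ring
  ext i j
  refine Fin.cases ?_ (fun i => ?_) i
  · refine Fin.cases ?_ (fun j => ?_) j
    · simp only [Matrix.of_apply, Fin.cons_zero, Matrix.one_apply_eq]
      exact c1
    · simp only [Matrix.of_apply, Fin.cons_zero, Fin.cons_succ]
      rw [c2, Matrix.one_apply_ne (Fin.succ_ne_zero j).symm]
      ring
  · refine Fin.cases ?_ (fun j => ?_) j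
    · simp only [Matrix.of_apply, Fin.cons_zero, Fin.cons_succ]
      rw [c3, Matrix.one_apply_ne (Fin.succ_ne_zero i)]
      ring
    · simp only [Matrix.of_apply, Fin.cons_succ]
      rw [c4, Matrix.one_apply]
      simp only [Fin.succ_inj]
      split_ifs
      · field_simp
        ring
      · ring

/-- Frobenius inner product of two block matrices. -/
lemma blk_sum (x : Fin k → ℝ) (α β γ δ α' β' γ' δ' : ℝ) :
    ∑ i, ∑ j, blk x α β γ δ i j * blk x α' β' γ' δ' i j =
      δ * δ' + 2 * γ * γ' * (∑ i, x i ^ 2) + k * α * α' + (α * β' + β * α') * (∑ i, x i ^ 2)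
        + β * β' * (∑ i, x i ^ 2) ^ 2 := by
  set r := ∑ i, x i ^ 2 with hr
  rw [Fin.sum_univ_succ]
  simp only [Fin.sum_univ_succ (n := k), blk_zero_zero, blk_zero_succ, blk_succ_zero, blk_succ_succ]
  have e1 : ∑ i : Fin k, γ * x i * (γ' * x i) = γ * γ' * r := by
    rw [hr, Finset.mul_sum]
    exact Finset.sum_congr rfl fun i _ => by ring
  have e2 : ∀ i : Fin k, ∑ j : Fin k, ((if i = j then α else 0) + β * x i * x j) *
      ((if i = j then α' else 0) + β' * x i * x j)
      = α * α' + (α * β' + β * α') * x i ^ 2 + β * β' * x i ^ 2 * r := by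
    intro i
    simp only [add_mul, mul_add, Finset.sum_add_distrib]
    have f1 : ∑ j : Fin k, (if i = j then α else 0) * (if i = j then α' else 0) = α * α' := by
      simp
    have f2 : ∑ j : Fin k, (if i = j then α else 0) * (β' * x i * x j) = α * β' * x i ^ 2 := by
      simp
      ring
    have f3 : ∑ j : Fin k, β * x i * x j * (if i = j then α' else 0) = β * α' * x i ^ 2 := by
      simp
      ring
    have f4 : ∑ j : Fin k, β * x i * x j * (β' * x i * x j) = β * β' * x i ^ 2 * r := by
      rw [hr, Finset.mul_sum]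
      exact Finset.sum_congr rfl fun i _ => by ring
    rw [f1, f2, f3, f4]
    ring
  rw [e1, Finset.sum_add_distrib, e1]
  simp only [e2, Finset.sum_add_distrib, ← Finset.mul_sum, ← Finset.sum_mul, ← hr]
  simp only [Finset.sum_const, Finset.card_univ, Fintype.card_fin, nsmul_eq_mul]
  ring

end Vale.Agent.P252
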