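import Mathlib

/-!
# P252, the affine Bernstein problem: definitions used in the statement
-/

namespace Vale.Agent.P252

/-- `pd i f x` is the `i`-th partial derivative `∂ᵢ f (x)` of `f : ℝⁿ → ℝ`. -/
noncomputable def pd {n : ℕ} (i : Fin n) (f : (Fin n → ℝ) → ℝ) (x : Fin n → ℝ) : ℝ :=
  fderiv ℝ f x (Pi.single i 1)

/-- `hess u x` is the Hessian matrix `D²u(x) = (∂ᵢ∂ⱼ u(x))`. -/
noncomputable def hess {n : ℕ} (u : (Fin n → ℝ) → ℝ) (x : Fin n → ℝ) :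
    Matrix (Fin n) (Fin n) ℝ :=
  Matrix.of fun i j => pd i (pd j u) x

/-- `wfun u = (det D²u)^{-(n+1)/(n+2)}`. -/
noncomputable def wfun {n : ℕ} (u : (Fin n → ℝ) → ℝ) (x : Fin n → ℝ) : ℝ :=
  (hess u x).det ^ (-(((n : ℝ) + 1) / ((n : ℝ) + 2)))

/-- The affine maximal equation (AM) at the point `x`:
`∑ᵢⱼ Uⁱʲ ∂ᵢⱼ w = 0` with `Uⁱʲ = det(D²u) (D²u)⁻¹ᵢⱼ` and `w = (det D²u)^{-(n+1)/(n+2)}`. -/
def AffineMaximalAt {n : ℕ} (u : (Fin n → ℝ) → ℝ) (x : Fin n → ℝ) : Prop :=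
  ∑ i, ∑ j, ((hess u x).det * (hess u x)⁻¹ i j) * pd i (pd j (wfun u)) x = 0

end Vale.Agent.P252
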