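import Mathlib
import Vale.Agent.P252.Defs
import Vale.Agent.P252.Blk

/-!
Calculus of functions of `(|x'|²/2, x₀)` on `ℝ^{k+1}`.
-/

namespace Vale.Agent.P252

open Matrix

variable {k : ℕ}

/-- the variables `x'` -/
def tl (x : Fin (k + 1) → ℝ) : Fin k → ℝ := fun i => x i.succ

/-- `ρ(x) = |x'|²/2`. -/
noncomputable def rho (x : Fin (k + 1) → ℝ) : ℝ := (∑ i : Fin k, x i.succ ^ 2) / 2

lemma rho_nonneg (x : Fin (k + 1) → ℝ) : 0 ≤ rho x := by
  unfold rho
  positivity

lemma sum_tl (x : Fin (k + 1) → ℝ) : ∑ i, tl x i ^ 2 = 2 * rho x := by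
  unfold rho tl
  ring

/-- derivative of `rho`. -/
noncomputable def drho (x : Fin (k + 1) → ℝ) : (Fin (k + 1) → ℝ) →L[ℝ] ℝ :=
  ∑ i : Fin k, x i.succ • (ContinuousLinearMap.proj (R := ℝ) (φ := fun _ : Fin (k + 1) => ℝ) i.succ)

/-- the 0-th coordinate. -/
noncomputable def dt : (Fin (k + 1) → ℝ) →L[ℝ] ℝ :=
  ContinuousLinearMap.proj (R := ℝ) (φ := fun _ : Fin (k + 1) => ℝ) 0

lemma drho_single_succ (x : Fin (k + 1) → ℝ) (i : Fin k) :
    drho x (Pi.single i.succ 1) = x i.succ := by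
  simp [drho, Pi.single_apply, Fin.succ_inj]

lemma drho_single_zero (x : Fin (k + 1) → ℝ) :
    drho x (Pi.single 0 1) = 0 := by
  simp [drho, Pi.single_apply, Fin.succ_ne_zero]

lemma dt_single_succ (i : Fin k) :
    (dt : (Fin (k + 1) → ℝ) →L[ℝ] ℝ) (Pi.single i.succ 1) = 0 := by
  simp [dt, Pi.single_apply, (Fin.succ_ne_zero _).symm]

lemma dt_single_zero :
    (dt : (Fin (k + 1) → ℝ) →L[ℝ] ℝ) (Pi.single 0 1) = 1 := by
  simp [dt]

/-- `f` has derivative `c dρ + t dx₀` at `x`. -/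
def D (f : (Fin (k + 1) → ℝ) → ℝ) (x : Fin (k + 1) → ℝ) (c t : ℝ) : Prop :=
  HasFDerivAt f (c • drho x + t • dt) x

lemma D.pd_succ {f : (Fin (k + 1) → ℝ) → ℝ} {x : Fin (k + 1) → ℝ} {c t : ℝ} (h : D f x c t)
    (i : Fin k) : pd i.succ f x = c * x i.succ := by
  unfold pd
  rw [h.fderiv]
  simp [drho_single_succ, dt_single_succ]

lemma D.pd_zero {f : (Fin (k + 1) → ℝ) → ℝ} {x : Fin (k + 1) → ℝ} {c t : ℝ} (h : D f x c t) :
    pd 0 f x = t := by
  unfold pd
  rw [h.fderiv]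
  simp [drho_single_zero, dt_single_zero]

lemma D_rho (x : Fin (k + 1) → ℝ) : D rho x 1 0 := by
  unfold D
  have h : ∀ i : Fin k, HasFDerivAt (fun y : Fin (k + 1) → ℝ => y i.succ ^ 2)
      ((2 * x i.succ) • (ContinuousLinearMap.proj (R := ℝ) (φ := fun _ : Fin (k + 1) => ℝ) i.succ))
      x := by
    intro i
    have h1 : HasFDerivAt (fun y : Fin (k + 1) → ℝ => y i.succ)
      (ContinuousLinearMap.proj (R := ℝ) (φ := fun _ : Fin (k + 1) => ℝ) i.succ) x :=
      (ContinuousLinearMap.proj (R := ℝ) (φ := fun _ : Fin (k + 1) => ℝ) i.succ).hasFDerivAt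
    have h2 := h1.pow 2
    refine h2.congr_fderiv ?_
    simp
  have h3 := HasFDerivAt.fun_sum (u := Finset.univ) fun i _ => h i
  have h4 := h3.mul_const (1 / 2 : ℝ)
  have h5 : (fun y : Fin (k + 1) → ℝ => (∑ i : Fin k, y i.succ ^ 2) * (1 / 2)) = rho := by
    funext y
    unfold rho
    ring
  rw [h5] at h4
  refine h4.congr_fderiv ?_
  unfold drho
  rw [Finset.smul_sum, one_smul, zero_smul, add_zero]
  refine Finset.sum_congr rfl fun i _ => ?_
  rw [smul_smul]
  congr 1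
  ring

lemma D_zero (x : Fin (k + 1) → ℝ) : D (fun y => y 0) x 0 1 := by
  unfold D
  have : HasFDerivAt (fun y : Fin (k + 1) → ℝ => y 0)
      (ContinuousLinearMap.proj (R := ℝ) (φ := fun _ : Fin (k + 1) => ℝ) 0) x :=
      (ContinuousLinearMap.proj (R := ℝ) (φ := fun _ : Fin (k + 1) => ℝ) 0).hasFDerivAt
  refine this.congr_fderiv ?_
  simp [dt]

lemma D.congr {f : (Fin (k + 1) → ℝ) → ℝ} {x : Fin (k + 1) → ℝ} {c t c' t' : ℝ} (h : D f x c t)
    (hc : c = c') (ht : t = t') : D f x c' t' := by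
  subst hc ht
  exact h

lemma D.comp {f : (Fin (k + 1) → ℝ) → ℝ} {x : Fin (k + 1) → ℝ} {c t : ℝ} (h : D f x c t)
    {g : ℝ → ℝ} {g' : ℝ} (hg : HasDerivAt g g' (f x)) : D (fun y => g (f y)) x (g' * c) (g' * t) := by
  unfold D at *
  have := hg.comp_hasFDerivAt x h
  refine this.congr_fderiv ?_
  rw [smul_add, smul_smul, smul_smul]

lemma D.mul {f g : (Fin (k + 1) → ℝ) → ℝ} {x : Fin (k + 1) → ℝ} {c t c' t' : ℝ}
    (h : D f x c t) (h' : D g x c' t') :
    D (fun y => f y * g y) x (f x * c' + g x * c) (f x * t' + g x * t) := by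
  unfold D at *
  have := HasFDerivAt.mul h h'
  refine this.congr_fderiv ?_
  simp only [smul_add, smul_smul, add_smul]
  abel

lemma D.add {f g : (Fin (k + 1) → ℝ) → ℝ} {x : Fin (k + 1) → ℝ} {c t c' t' : ℝ}
    (h : D f x c t) (h' : D g x c' t') :
    D (fun y => f y + g y) x (c + c') (t + t') := by
  unfold D at *
  have := HasFDerivAt.add h h'
  refine this.congr_fderiv ?_
  simp only [add_smul]
  abel

lemma D_coord {f : (Fin (k + 1) → ℝ) → ℝ} {x : Fin (k + 1) → ℝ} {c t : ℝ} (h : D f x c t)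
    (j : Fin k) : HasFDerivAt (fun y => f y * y j.succ)
      (f x • (ContinuousLinearMap.proj (R := ℝ) (φ := fun _ : Fin (k + 1) => ℝ) j.succ) +
        x j.succ • (c • drho x + t • dt)) x := by
  have h1 : HasFDerivAt (fun y : Fin (k + 1) → ℝ => y j.succ)
      (ContinuousLinearMap.proj (R := ℝ) (φ := fun _ : Fin (k + 1) => ℝ) j.succ) x :=
      (ContinuousLinearMap.proj (R := ℝ) (φ := fun _ : Fin (k + 1) => ℝ) j.succ).hasFDerivAt
  exact HasFDerivAt.mul h h1

/-- The Hessian of a function `f` whose gradient is `(T, A x')`. -/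
lemma hess_eq_blk {f A T : (Fin (k + 1) → ℝ) → ℝ} (hf : ∀ y, D f y (A y) (T y))
    {x : Fin (k + 1) → ℝ} {c t δ : ℝ} (hA : D A x c t) (hT : D T x t δ) :
    hess f x = blk (tl x) (A x) c t δ := by
  have h0 : pd 0 f = T := funext fun y => (hf y).pd_zero
  have h1 : ∀ j : Fin k, pd j.succ f = fun y => A y * y j.succ :=
    fun j => funext fun y => (hf y).pd_succ j
  ext i j
  unfold hess
  rw [Matrix.of_apply]
  refine Fin.cases ?_ (fun j => ?_) j
  · rw [h0]
    refine Fin.cases ?_ (fun i => ?_) i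
    · rw [hT.pd_zero]
      simp
    · rw [hT.pd_succ]
      simp [tl]
  · rw [h1]
    refine Fin.cases ?_ (fun i => ?_) i
    · unfold pd
      rw [(D_coord hA j).fderiv]
      simp only [ContinuousLinearMap.add_apply, ContinuousLinearMap.smul_apply,
        ContinuousLinearMap.proj_apply, smul_eq_mul, drho_single_zero, dt_single_zero,
        blk_zero_succ, tl]
      rw [Pi.single_eq_of_ne (Fin.succ_ne_zero j)]
      ring
    · unfold pd
      rw [(D_coord hA j).fderiv]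
      simp only [ContinuousLinearMap.add_apply, ContinuousLinearMap.smul_apply,
        ContinuousLinearMap.proj_apply, smul_eq_mul, drho_single_succ, dt_single_succ,
        blk_succ_succ, tl]
      by_cases hij : i = j
      · subst hij
        simp
        ring
      · rw [Pi.single_eq_of_ne (fun h => hij (Fin.succ_injective _ h).symm), if_neg hij]
        ring

lemma blk_isSymm (x : Fin k → ℝ) (α β γ δ : ℝ) : (blk x α β γ δ).IsHermitian := by
  ext i j
  simp only [Matrix.conjTranspose_apply, star_trivial]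
  refine Fin.cases ?_ (fun i => ?_) i
  · refine Fin.cases ?_ (fun j => ?_) j
    · rfl
    · simp
  · refine Fin.cases ?_ (fun j => ?_) j
    · simp
    · simp only [blk_succ_succ, eq_comm (a := j) (b := i)]
      ring

lemma blk_quad (x : Fin k → ℝ) (α β γ δ : ℝ) (ξ : Fin (k + 1) → ℝ) :
    ξ ⬝ᵥ (blk x α β γ δ *ᵥ ξ) = δ * ξ 0 ^ 2 + 2 * γ * ξ 0 * (∑ i, x i * ξ i.succ)
      + α * (∑ i : Fin k, ξ i.succ ^ 2) + β * (∑ i, x i * ξ i.succ) ^ 2 := by
  set s := ∑ i, x i * ξ i.succ with hs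
  simp only [dotProduct, Matrix.mulVec]
  rw [Fin.sum_univ_succ]
  simp only [Fin.sum_univ_succ (n := k), blk_zero_zero, blk_zero_succ, blk_succ_zero, blk_succ_succ]
  have e1 : ∑ i : Fin k, γ * x i * ξ i.succ = γ * s := by
    rw [hs, Finset.mul_sum]
    exact Finset.sum_congr rfl fun i _ => by ring
  have e2 : ∀ i : Fin k, ∑ j : Fin k, ((if i = j then α else 0) + β * x i * x j) * ξ j.succ
      = α * ξ i.succ + β * x i * s := by
    intro i
    simp only [add_mul, Finset.sum_add_distrib]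
    have f1 : ∑ j : Fin k, (if i = j then α else 0) * ξ j.succ = α * ξ i.succ := by
      simp
    have f2 : ∑ j : Fin k, β * x i * x j * ξ j.succ = β * x i * s := by
      rw [hs, Finset.mul_sum]
      exact Finset.sum_congr rfl fun i _ => by ring
    rw [f1, f2]
  simp only [e2, e1]
  have e3 : ∑ i : Fin k, ξ i.succ * (γ * x i * ξ 0 + (α * ξ i.succ + β * x i * s))
      = γ * ξ 0 * s + α * (∑ i : Fin k, ξ i.succ ^ 2) + β * s * s := by
    have : ∀ i : Fin k, ξ i.succ * (γ * x i * ξ 0 + (α * ξ i.succ + β * x i * s))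
      = γ * ξ 0 * (x i * ξ i.succ) + α * ξ i.succ ^ 2 + β * s * (x i * ξ i.succ) := by
      intro i
      ring
    simp only [this, Finset.sum_add_distrib, ← Finset.mul_sum, ← hs]
  rw [e3]
  ring

/-- positive definiteness of the Hessian of `√(ψ(ρ)² + t²)`. -/
lemma blk_posDef (x : Fin k → ℝ) {ψ p p1 t u : ℝ} (hψ : 0 < ψ) (hp : 0 < p)
    (hD : 0 < p + (∑ i, x i ^ 2) * p1) (hu : 0 < u) (hut : u ^ 2 = ψ ^ 2 + t ^ 2) :
    (blk x (ψ * p / u) ((p ^ 2 + ψ * p1) / u - (ψ * p) ^ 2 / u ^ 3) (-(ψ * p) * t / u ^ 3)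
      (ψ ^ 2 / u ^ 3)).PosDef := by
  apply Matrix.PosDef.of_dotProduct_mulVec_pos (blk_isSymm _ _ _ _ _)
  intro ξ hξ
  rw [star_trivial, blk_quad]
  set r := ∑ i, x i ^ 2 with hr
  set s := ∑ i, x i * ξ i.succ with hs
  set m := ∑ i : Fin k, ξ i.succ ^ 2 with hm
  have hCS : s ^ 2 ≤ r * m := by
    rw [hs, hr, hm]
    exact Finset.sum_mul_sq_le_sq_mul_sq _ _ _
  have hm0 : 0 ≤ m := Finset.sum_nonneg fun i _ => sq_nonneg _
  have key : ψ ^ 2 / u ^ 3 * ξ 0 ^ 2 + 2 * (-(ψ * p) * t / u ^ 3) * ξ 0 * s + ψ * p / u * m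
      + ((p ^ 2 + ψ * p1) / u - (ψ * p) ^ 2 / u ^ 3) * s ^ 2
      = ψ / u * (p * m + p1 * s ^ 2) + (t * p * s - ψ * ξ 0) ^ 2 / u ^ 3 := by
    have : (p ^ 2 + ψ * p1) / u = ψ * p1 / u + p ^ 2 * (ψ ^ 2 + t ^ 2) / u ^ 3 := by
      rw [← hut]
      field_simp
      ring
    rw [this]
    field_simp
    ring
  rw [key]
  by_cases hm1 : m = 0
  · have hs0 : s = 0 := by
      have : s ^ 2 ≤ 0 := by
        rw [hm1, mul_zero] at hCS
        exact hCS
      nlinarith
    have hξ' : ∀ i : Fin k, ξ i.succ = 0 := by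
      intro i
      have := (Finset.sum_eq_zero_iff_of_nonneg (fun i _ => sq_nonneg (ξ (Fin.succ i)))).1 hm1 i
        (Finset.mem_univ i)
      exact pow_eq_zero_iff (two_ne_zero) |>.1 this
    have h0 : ξ 0 ≠ 0 := by
      intro h
      apply hξ
      funext i
      refine Fin.cases h (fun i => hξ' i) i
    rw [hm1, hs0]
    have : 0 < ξ 0 ^ 2 := by positivity
    have h2 : 0 < (t * p * 0 - ψ * ξ 0) ^ 2 / u ^ 3 := by
      have : (t * p * 0 - ψ * ξ 0) ^ 2 = ψ ^ 2 * ξ 0 ^ 2 := by ring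
      rw [this]
      positivity
    simpa using h2
  · have hm2 : 0 < m := lt_of_le_of_ne hm0 (Ne.symm hm1)
    have h1 : 0 < p * m + p1 * s ^ 2 := by
      by_cases hp1 : 0 ≤ p1
      · have : 0 ≤ p1 * s ^ 2 := by positivity
        have : 0 < p * m := by positivity
        linarith
      · push Not at hp1
        have : p1 * (r * m) ≤ p1 * s ^ 2 := by
          exact mul_le_mul_of_nonpos_left hCS hp1.le
        have : 0 < (p + r * p1) * m := by positivity
        nlinarith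
    positivity

end Vale.Agent.P252
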