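import Mathlib
import Vale.Agent.P252.Defs
import Vale.Agent.P252.Blk
import Vale.Agent.P252.Calc

/-!
The function `u(x', t) = √(ψ(|x'|²/2)² + t²)`.
-/

namespace Vale.Agent.P252

open Matrix Filter Topology

variable {k : ℕ}

/-- Hessian, local version. -/
lemma hess_eq_blk' {f A T : (Fin (k + 1) → ℝ) → ℝ} {x : Fin (k + 1) → ℝ}
    (hf : ∀ᶠ y in 𝓝 x, D f y (A y) (T y))
    {c t δ : ℝ} (hA : D A x c t) (hT : D T x t δ) :
    hess f x = blk (tl x) (A x) c t δ := by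
  have h0 : pd 0 f =ᶠ[𝓝 x] T := hf.mono fun y hy => hy.pd_zero
  have h1 : ∀ j : Fin k, pd j.succ f =ᶠ[𝓝 x] fun y => A y * y j.succ :=
    fun j => hf.mono fun y hy => hy.pd_succ j
  ext i j
  unfold hess
  rw [Matrix.of_apply]
  refine Fin.cases ?_ (fun j => ?_) j
  · have : ∀ i, pd i (pd 0 f) x = pd i T x := by
      intro i
      have h := Filter.EventuallyEq.fderiv_eq (𝕜 := ℝ) h0
      change (fderiv ℝ (pd 0 f) x) (Pi.single i 1) = (fderiv ℝ T x) (Pi.single i 1)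
      rw [h]
    rw [this]
    refine Fin.cases ?_ (fun i => ?_) i
    · rw [hT.pd_zero]
      simp
    · rw [hT.pd_succ]
      simp [tl]
  · have : ∀ i, pd i (pd j.succ f) x = pd i (fun y => A y * y j.succ) x := by
      intro i
      have h := Filter.EventuallyEq.fderiv_eq (𝕜 := ℝ) (h1 j)
      change (fderiv ℝ (pd j.succ f) x) (Pi.single i 1) =
        (fderiv ℝ (fun y => A y * y j.succ) x) (Pi.single i 1)
      rw [h]
    rw [this]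
    refine Fin.cases ?_ (fun i => ?_) i
    · unfold pd
      rw [(D_coord hA j).fderiv]
      simp only [_root_.add_apply, _root_.smul_apply,
        ContinuousLinearMap.proj_apply, smul_eq_mul, drho_single_zero, dt_single_zero,
        blk_zero_succ, tl]
      rw [Pi.single_eq_of_ne (Fin.succ_ne_zero j)]
      ring
    · unfold pd
      rw [(D_coord hA j).fderiv]
      simp only [_root_.add_apply, _root_.smul_apply,
        ContinuousLinearMap.proj_apply, smul_eq_mul, drho_single_succ, dt_single_succ,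
        blk_succ_succ, tl]
      by_cases hij : i = j
      · subst hij
        simp
        ring
      · rw [Pi.single_eq_of_ne (fun h => hij (Fin.succ_injective _ h).symm), if_neg hij]
        ring

/-- `u(x) = √(ψ(ρ)² + x₀²)`. -/
noncomputable def uf (ψ : ℝ → ℝ) (x : Fin (k + 1) → ℝ) : ℝ :=
  Real.sqrt (ψ (rho x) ^ 2 + x 0 ^ 2)

section

variable {ψ p p1 : ℝ → ℝ}

lemma uf_pos (hψ : ∀ ρ, 0 ≤ ρ → 0 < ψ ρ) (x : Fin (k + 1) → ℝ) : 0 < uf ψ x := by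
  unfold uf
  apply Real.sqrt_pos.2
  have := hψ _ (rho_nonneg x)
  positivity

lemma uf_sq (ψ : ℝ → ℝ) (x : Fin (k + 1) → ℝ) :
    uf ψ x ^ 2 = ψ (rho x) ^ 2 + x 0 ^ 2 := by
  unfold uf
  rw [Real.sq_sqrt (by positivity)]

lemma D_uf (hψ : ∀ ρ, 0 ≤ ρ → 0 < ψ ρ) (hp : ∀ ρ, 0 ≤ ρ → HasDerivAt ψ (p ρ) ρ)
    (x : Fin (k + 1) → ℝ) :
    D (uf ψ) x (ψ (rho x) * p (rho x) / uf ψ x) (x 0 / uf ψ x) := by
  have h1 : D (fun y => ψ (rho y)) x (p (rho x) * 1) (p (rho x) * 0) :=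
    (D_rho x).comp (hp _ (rho_nonneg x))
  have h2 := (h1.mul h1).add ((D_zero x).mul (D_zero x))
  have h3 : HasDerivAt (fun z : ℝ => Real.sqrt z) (1 / (2 * Real.sqrt
      (ψ (rho x) * ψ (rho x) + x 0 * x 0))) (ψ (rho x) * ψ (rho x) + x 0 * x 0) := by
    apply Real.hasDerivAt_sqrt
    have := hψ _ (rho_nonneg x)
    have h5 : 0 ≤ x 0 * x 0 := mul_self_nonneg _
    positivity
  have h4 := h2.comp h3
  have e : (fun y : Fin (k + 1) → ℝ => Real.sqrt (ψ (rho y) * ψ (rho y) + y 0 * y 0)) = uf ψ := by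
    funext y
    unfold uf
    ring_nf
  rw [e] at h4
  have e2 : Real.sqrt (ψ (rho x) * ψ (rho x) + x 0 * x 0) = uf ψ x := by
    unfold uf
    ring_nf
  rw [e2] at h4
  have hu := uf_pos hψ x
  refine h4.congr ?_ ?_
  · field_simp
    ring
  · field_simp
    ring

lemma hess_uf (hψ : ∀ ρ, 0 ≤ ρ → 0 < ψ ρ) (hp : ∀ ρ, 0 ≤ ρ → HasDerivAt ψ (p ρ) ρ)
    (hp1 : ∀ ρ, 0 ≤ ρ → HasDerivAt p (p1 ρ) ρ) (x : Fin (k + 1) → ℝ) :
    hess (uf ψ) x = blk (tl x) (ψ (rho x) * p (rho x) / uf ψ x)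
      ((p (rho x) ^ 2 + ψ (rho x) * p1 (rho x)) / uf ψ x
        - (ψ (rho x) * p (rho x)) ^ 2 / uf ψ x ^ 3)
      (-(ψ (rho x) * p (rho x)) * x 0 / uf ψ x ^ 3) (ψ (rho x) ^ 2 / uf ψ x ^ 3) := by
  have hu := uf_pos hψ x
  have hinv : D (fun y => (uf ψ y)⁻¹) x _ _ := (D_uf hψ hp x).comp (hasDerivAt_inv hu.ne')
  have h1 : D (fun y => ψ (rho y)) x (p (rho x) * 1) (p (rho x) * 0) :=
    (D_rho x).comp (hp _ (rho_nonneg x))
  have h2 : D (fun y => p (rho y)) x (p1 (rho x) * 1) (p1 (rho x) * 0) :=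
    (D_rho x).comp (hp1 _ (rho_nonneg x))
  have hA := (h1.mul h2).mul hinv
  have hT := (D_zero x).mul hinv
  have e1 : (fun y : Fin (k + 1) → ℝ => ψ (rho y) * p (rho y) * (uf ψ y)⁻¹)
      = fun y => ψ (rho y) * p (rho y) / uf ψ y := by
    funext y
    rw [div_eq_mul_inv]
  have e2 : (fun y : Fin (k + 1) → ℝ => y 0 * (uf ψ y)⁻¹) = fun y => y 0 / uf ψ y := by
    funext y
    rw [div_eq_mul_inv]
  rw [e1] at hA
  rw [e2] at hT
  have hsq := uf_sq ψ x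
  refine hess_eq_blk (f := uf ψ) (A := fun y => ψ (rho y) * p (rho y) / uf ψ y)
    (T := fun y => y 0 / uf ψ y) (fun y => D_uf hψ hp y) (hA.congr ?_ ?_) (hT.congr ?_ ?_)
  · field_simp
    ring
  · field_simp
    ring
  · field_simp
    ring
  · have : ψ (rho x) ^ 2 = uf ψ x ^ 2 - x 0 ^ 2 := by linarith
    rw [this]
    field_simp
    ring

lemma posDef_hess_uf (hψ : ∀ ρ, 0 ≤ ρ → 0 < ψ ρ) (hp : ∀ ρ, 0 ≤ ρ → HasDerivAt ψ (p ρ) ρ)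
    (hp1 : ∀ ρ, 0 ≤ ρ → HasDerivAt p (p1 ρ) ρ) (hp0 : ∀ ρ, 0 ≤ ρ → 0 < p ρ)
    (hD : ∀ ρ, 0 ≤ ρ → 0 < p ρ + 2 * ρ * p1 ρ) (x : Fin (k + 1) → ℝ) :
    (hess (uf ψ) x).PosDef := by
  rw [hess_uf hψ hp hp1 x]
  have h0 := rho_nonneg x
  apply blk_posDef _ (hψ _ h0) (hp0 _ h0) _ (uf_pos hψ x) (uf_sq ψ x)
  rw [sum_tl]
  exact hD _ h0

/-- `G = ψ^{k+2} p^{k-1} (p + 2 ρ p')`, written as `ψ^{k+2} p^k b`. -/
lemma det_hess_uf (hk : 1 ≤ k) (hψ : ∀ ρ, 0 ≤ ρ → 0 < ψ ρ)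
    (hp : ∀ ρ, 0 ≤ ρ → HasDerivAt ψ (p ρ) ρ)
    (hp1 : ∀ ρ, 0 ≤ ρ → HasDerivAt p (p1 ρ) ρ) (hp0 : ∀ ρ, 0 ≤ ρ → 0 < p ρ)
    (x : Fin (k + 1) → ℝ) :
    (hess (uf ψ) x).det = ψ (rho x) ^ (k + 2) * p (rho x) ^ k *
      ((p (rho x) + 2 * rho x * p1 (rho x)) / p (rho x)) / uf ψ x ^ (k + 3) := by
  rw [hess_uf hψ hp hp1 x]
  have h0 := rho_nonneg x
  have hu := uf_pos hψ x
  have hψ0 := hψ _ h0
  have hp00 := hp0 _ h0
  have hα : ψ (rho x) * p (rho x) / uf ψ x ≠ 0 := by positivity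
  have hδ : ψ (rho x) ^ 2 / uf ψ x ^ 3 ≠ 0 := by positivity
  have hsq := uf_sq ψ x
  have key := blk_det (tl x) _ ((p (rho x) ^ 2 + ψ (rho x) * p1 (rho x)) / uf ψ x
        - (ψ (rho x) * p (rho x)) ^ 2 / uf ψ x ^ 3)
      (-(ψ (rho x) * p (rho x)) * x 0 / uf ψ x ^ 3) _ hα hδ
  rw [sum_tl] at key
  apply mul_left_cancel₀ hα
  rw [key]
  set P := p (rho x)
  set Q := p1 (rho x)
  set Ψ := ψ (rho x)
  set U := uf ψ x
  set ρ := rho x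
  set t := x 0
  have e1 : (Ψ * P / U + ((P ^ 2 + Ψ * Q) / U - (Ψ * P) ^ 2 / U ^ 3) * (2 * ρ)) * (Ψ ^ 2 / U ^ 3)
      - (-(Ψ * P) * t / U ^ 3) ^ 2 * (2 * ρ) = Ψ ^ 3 * (P + 2 * ρ * Q) / U ^ 4 := by
    have ht : t ^ 2 = U ^ 2 - Ψ ^ 2 := by linarith
    have : (-(Ψ * P) * t / U ^ 3) ^ 2 = (Ψ * P) ^ 2 * t ^ 2 / U ^ 6 := by
      field_simp
    rw [this, ht]
    field_simp
    ring
  rw [e1]
  obtain ⟨m, rfl⟩ : ∃ m, k = m + 1 := ⟨k - 1, by omega⟩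
  rw [div_pow, mul_pow]
  field_simp
  ring

end

end Vale.Agent.P252
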