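import Mathlib
import Vale.Agent.P252.Defs
import Vale.Agent.P252.Blk
import Vale.Agent.P252.Calc
import Vale.Agent.P252.Geom
import Vale.Agent.P252.Alg

/-!
The affine maximal equation for `u(x', t) = √(ψ(|x'|²/2)² + t²)` away from `x' = 0`.
-/

namespace Vale.Agent.P252

open Matrix Filter Topology

variable {k : ℕ}

/-- `a = 2ρψ'/ψ` -/
noncomputable def af (ψ p : ℝ → ℝ) (ρ : ℝ) : ℝ := 2 * ρ * p ρ / ψ ρ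

/-- `b = (p + 2ρp')/p` -/
noncomputable def bf (p p1 : ℝ → ℝ) (ρ : ℝ) : ℝ := (p ρ + 2 * ρ * p1 ρ) / p ρ

/-- `K = (ψ^{k+2} p^k b)^{-(k+2)/(k+3)}` -/
noncomputable def Kf (k : ℕ) (ψ p p1 : ℝ → ℝ) (ρ : ℝ) : ℝ :=
  (ψ ρ ^ (k + 2) * p ρ ^ k * bf p p1 ρ) ^ (-(((k : ℝ) + 2) / ((k : ℝ) + 3)))

section

variable {ψ p p1 : ℝ → ℝ}

lemma wfun_uf (hk : 1 ≤ k) (hψ : ∀ ρ, 0 ≤ ρ → 0 < ψ ρ)
    (hp : ∀ ρ, 0 ≤ ρ → HasDerivAt ψ (p ρ) ρ)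
    (hp1 : ∀ ρ, 0 ≤ ρ → HasDerivAt p (p1 ρ) ρ) (hp0 : ∀ ρ, 0 ≤ ρ → 0 < p ρ)
    (hD : ∀ ρ, 0 ≤ ρ → 0 < p ρ + 2 * ρ * p1 ρ) (x : Fin (k + 1) → ℝ) :
    wfun (uf ψ) x = Kf k ψ p p1 (rho x) * uf ψ x ^ (k + 2) := by
  unfold wfun
  rw [det_hess_uf hk hψ hp hp1 hp0]
  have h0 := rho_nonneg x
  have hu := uf_pos hψ x
  have hψ0 := hψ _ h0
  have hp00 := hp0 _ h0
  have hD0 := hD _ h0
  have hb : 0 < bf p p1 (rho x) := div_pos hD0 hp00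
  unfold Kf
  change (ψ (rho x) ^ (k + 2) * p (rho x) ^ k * bf p p1 (rho x) / uf ψ x ^ (k + 3)) ^ _ = _
  have e1 : (-(((k + 1 : ℕ) : ℝ) + 1) / (((k + 1 : ℕ) : ℝ) + 2))
      = (-(((k : ℝ) + 2) / ((k : ℝ) + 3))) := by
    push_cast
    rw [neg_div]
    congr 2 <;> ring
  rw [← neg_div, e1, Real.div_rpow (by positivity) (by positivity), Real.rpow_neg (x := uf ψ x ^ (k + 3))
    (by positivity), div_inv_eq_mul]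
  congr 1
  rw [← Real.rpow_natCast, ← Real.rpow_mul hu.le, ← Real.rpow_natCast]
  congr 1
  push_cast
  field_simp

lemma hasDerivAt_af (hψ : ∀ ρ, 0 ≤ ρ → 0 < ψ ρ)
    (hp : ∀ ρ, 0 ≤ ρ → HasDerivAt ψ (p ρ) ρ)
    (hp1 : ∀ ρ, 0 ≤ ρ → HasDerivAt p (p1 ρ) ρ) (hp0 : ∀ ρ, 0 ≤ ρ → 0 < p ρ)
    {ρ : ℝ} (hρ : 0 < ρ) :
    HasDerivAt (af ψ p) (fa (af ψ p ρ) (bf p p1 ρ) / (2 * ρ)) ρ := by
  have hψ0 := hψ _ hρ.le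
  have hp00 := hp0 _ hρ.le
  have h1 : HasDerivAt (fun r : ℝ => 2 * r * p r / ψ r) _ ρ :=
    (((hasDerivAt_id' ρ).const_mul 2).mul (hp1 ρ hρ.le)).div (hp ρ hρ.le) hψ0.ne'
  refine h1.congr_deriv ?_
  simp only [Pi.mul_apply]
  unfold af bf fa
  field_simp
  ring

lemma hasDerivAt_ef (hψ : ∀ ρ, 0 ≤ ρ → 0 < ψ ρ)
    (hp : ∀ ρ, 0 ≤ ρ → HasDerivAt ψ (p ρ) ρ)
    (hp1 : ∀ ρ, 0 ≤ ρ → HasDerivAt p (p1 ρ) ρ) (hp0 : ∀ ρ, 0 ≤ ρ → 0 < p ρ)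
    (hk : 1 ≤ k)
    {ρ : ℝ} (hρ : 0 < ρ)
    (hb : HasDerivAt (bf p p1) (fb k (af ψ p ρ) (bf p p1 ρ) / (2 * ρ)) ρ) :
    HasDerivAt (fun r => ef k (af ψ p r) (bf p p1 r)) (ed k (af ψ p ρ) (bf p p1 ρ) / (2 * ρ)) ρ := by
  have ha := hasDerivAt_af hψ hp hp1 hp0 hρ
  have hψ0 := hψ _ hρ.le
  have hp00 := hp0 _ hρ.le
  have ha0 : 0 < af ψ p ρ := by
    unfold af
    positivity
  have hk' : (1 : ℝ) ≤ k := by exact_mod_cast hk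
  have hs : 2 * af ψ p ρ + k ≠ 0 := by positivity
  have h1 : HasDerivAt (fun r => (-((k : ℝ) + 2) * af ψ p r) * (2 * af ψ p r + k + 2 * bf p p1 r - 1) /
      (2 * af ψ p r + k)) _ ρ :=
    ((ha.const_mul (-((k : ℝ) + 2))).mul ((((ha.const_mul 2).add_const (k : ℝ)).add
      (hb.const_mul 2)).sub_const 1)).div ((ha.const_mul 2).add_const (k : ℝ)) hs
  refine h1.congr_deriv ?_
  simp only [Pi.mul_apply, Pi.add_apply]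
  unfold ed
  generalize fb (k : ℝ) (af ψ p ρ) (bf p p1 ρ) = B
  generalize fa (af ψ p ρ) (bf p p1 ρ) = A
  generalize af ψ p ρ = a at *
  generalize bf p p1 ρ = b at *
  field_simp
  ring

lemma hasDerivAt_Kf (hψ : ∀ ρ, 0 ≤ ρ → 0 < ψ ρ)
    (hp : ∀ ρ, 0 ≤ ρ → HasDerivAt ψ (p ρ) ρ)
    (hp1 : ∀ ρ, 0 ≤ ρ → HasDerivAt p (p1 ρ) ρ) (hp0 : ∀ ρ, 0 ≤ ρ → 0 < p ρ)
    (hD : ∀ ρ, 0 ≤ ρ → 0 < p ρ + 2 * ρ * p1 ρ)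
    (hk : 1 ≤ k)
    {ρ : ℝ} (hρ : 0 < ρ)
    (hb : HasDerivAt (bf p p1) (fb k (af ψ p ρ) (bf p p1 ρ) / (2 * ρ)) ρ) :
    HasDerivAt (Kf k ψ p p1) (Kf k ψ p p1 ρ * (ef k (af ψ p ρ) (bf p p1 ρ) / (2 * ρ))) ρ := by
  have hψ0 := hψ _ hρ.le
  have hp00 := hp0 _ hρ.le
  have hD0 := hD _ hρ.le
  have ha0 : 0 < af ψ p ρ := by
    unfold af
    positivity
  have hb0 : 0 < bf p p1 ρ := div_pos hD0 hp00
  have hk' : (1 : ℝ) ≤ k := by exact_mod_cast hk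
  have hs : 2 * af ψ p ρ + k ≠ 0 := by positivity
  have hG : 0 < ψ ρ ^ (k + 2) * p ρ ^ k * bf p p1 ρ := by positivity
  have h1 := ((((hp ρ hρ.le).pow (k + 2)).mul ((hp1 ρ hρ.le).pow k)).mul hb).rpow_const
    (p := (-(((k : ℝ) + 2) / ((k : ℝ) + 3)))) (Or.inl hG.ne')
  have h2 : HasDerivAt (Kf k ψ p p1) _ ρ := h1
  refine h2.congr_deriv ?_
  simp only [Pi.mul_apply, Pi.pow_apply]
  rw [Real.rpow_sub_one hG.ne']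
  change _ * _ * (Kf k ψ p p1 ρ / _) = _
  generalize Kf k ψ p p1 ρ = K
  have e1 : p1 ρ / p ρ = (bf p p1 ρ - 1) / (2 * ρ) := by
    unfold bf
    field_simp
    ring
  have e2 : p ρ / ψ ρ = af ψ p ρ / (2 * ρ) := by
    unfold af
    field_simp
  have e3 : ((((k + 2 : ℕ) : ℝ) * ψ ρ ^ (k + 2 - 1) * p ρ) * p ρ ^ k +
      ψ ρ ^ (k + 2) * ((k : ℝ) * p ρ ^ (k - 1) * p1 ρ)) * bf p p1 ρ +
      ψ ρ ^ (k + 2) * p ρ ^ k * (fb k (af ψ p ρ) (bf p p1 ρ) / (2 * ρ))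
      = ψ ρ ^ (k + 2) * p ρ ^ k * bf p p1 ρ * (((k : ℝ) + 2) * (p ρ / ψ ρ) + k * (p1 ρ / p ρ)
        + fb k (af ψ p ρ) (bf p p1 ρ) / (2 * ρ) / bf p p1 ρ) := by
    obtain ⟨m, rfl⟩ : ∃ m, k = m + 1 := ⟨k - 1, by omega⟩
    have : m + 1 + 2 - 1 = m + 2 := by omega
    rw [this, Nat.add_sub_cancel]
    push_cast
    field_simp
    ring
  rw [e3, e1, e2]
  generalize ψ ρ ^ (k + 2) * p ρ ^ k * bf p p1 ρ = G at *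
  unfold ef fb
  generalize bf p p1 ρ = b at *
  generalize af ψ p ρ = a at *
  field_simp
  ring

end

end Vale.Agent.P252
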