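import Mathlib
import Vale.Agent.P252.Defs
import Vale.Agent.P252.Blk
import Vale.Agent.P252.Calc
import Vale.Agent.P252.Geom
import Vale.Agent.P252.Alg
import Vale.Agent.P252.Geom2

/-!
The affine maximal equation for `u(x', t) = √(ψ(|x'|²/2)² + t²)` away from `x' = 0`.
-/

namespace Vale.Agent.P252

open Matrix Filter Topology

variable {k : ℕ}

lemma D.pow' {f : (Fin (k + 1) → ℝ) → ℝ} {x : Fin (k + 1) → ℝ} {c t : ℝ} (h : D f x c t)
    (hf : f x ≠ 0) (m : ℕ) :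
    D (fun y => f y ^ m) x (m * f x ^ m * c / f x) (m * f x ^ m * t / f x) := by
  have h1 := h.comp (hasDerivAt_pow m (f x))
  rcases m with _ | m
  · refine h1.congr ?_ ?_ <;> simp
  · refine h1.congr ?_ ?_
    · rw [Nat.add_sub_cancel]
      field_simp
      ring
    · rw [Nat.add_sub_cancel]
      field_simp
      ring

lemma D_const (x : Fin (k + 1) → ℝ) (r : ℝ) : D (fun _ => r) x 0 0 := by
  unfold D
  simpa using hasFDerivAt_const r x

section

variable {ψ p p1 : ℝ → ℝ}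

/-- Hessian of `w = K(ρ) u^{k+2}` away from `x' = 0`. -/
lemma hess_w (hψ : ∀ ρ, 0 ≤ ρ → 0 < ψ ρ)
    (hp : ∀ ρ, 0 ≤ ρ → HasDerivAt ψ (p ρ) ρ)
    (hp1 : ∀ ρ, 0 ≤ ρ → HasDerivAt p (p1 ρ) ρ) (hp0 : ∀ ρ, 0 ≤ ρ → 0 < p ρ)
    (hD : ∀ ρ, 0 ≤ ρ → 0 < p ρ + 2 * ρ * p1 ρ)
    (hk : 1 ≤ k)
    (hb : ∀ ρ, 0 < ρ → HasDerivAt (bf p p1) (fb k (af ψ p ρ) (bf p p1 ρ) / (2 * ρ)) ρ)
    {x : Fin (k + 1) → ℝ} (hx : 0 < rho x) {ρ a b c u M q e d : ℝ}
    (hρ : ρ = rho x) (ha : a = af ψ p ρ) (hbb : b = bf p p1 ρ) (hc : c = ψ ρ ^ 2)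
    (hu : u = uf ψ x) (hM : M = Kf k ψ p p1 ρ * u ^ k) (hq : q = ψ ρ * p ρ)
    (he : e = ef k a b) (hd : d = ed k a b) :
    hess (wfun (uf ψ)) x = blk (tl x) (M * (e / (2 * ρ) * u ^ 2 + (k + 2) * q))
      (M * ((e + k * a * c / u ^ 2) * (e * u ^ 2 + (k + 2) * a * c)
        + (d - 2 * e) * u ^ 2 + 2 * e * a * c
          + (k + 2) * a * c * (a + b - 1)) / (2 * ρ) ^ 2)
      ((k + 2) * M * x 0 * (e + k * a * c / u ^ 2) / (2 * ρ))
      ((k + 2) * M * (1 + k * x 0 ^ 2 / u ^ 2)) := by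
  have hk' : (1 : ℝ) ≤ k := by exact_mod_cast hk
  have hw : wfun (uf ψ) = fun y : Fin (k + 1) → ℝ => Kf k ψ p p1 (rho y) * uf ψ y ^ (k + 2) :=
    funext fun y => wfun_uf hk hψ hp hp1 hp0 hD y
  rw [hw]
  have hupos : ∀ y : Fin (k + 1) → ℝ, 0 < uf ψ y := fun y => uf_pos hψ y
  have hDu := fun y : Fin (k + 1) → ℝ => D_uf hψ hp y
  -- gradient of w near x
  have hev : ∀ᶠ y in 𝓝 x, 0 < rho y := by
    have hc : ContinuousAt (rho : (Fin (k + 1) → ℝ) → ℝ) x :=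
      (show HasFDerivAt _ _ _ from D_rho x).continuousAt
    exact hc.eventually_const_lt hx
  have hK : ∀ y : Fin (k + 1) → ℝ, 0 < rho y → D (fun y => Kf k ψ p p1 (rho y)) y
      (Kf k ψ p p1 (rho y) * (ef k (af ψ p (rho y)) (bf p p1 (rho y)) / (2 * rho y)) * 1)
      (Kf k ψ p p1 (rho y) * (ef k (af ψ p (rho y)) (bf p p1 (rho y)) / (2 * rho y)) * 0) := by
    intro y hy
    exact (D_rho y).comp (hasDerivAt_Kf hψ hp hp1 hp0 hD hk hy (hb _ hy))
  have hgrad : ∀ᶠ y in 𝓝 x, D (fun y => Kf k ψ p p1 (rho y) * uf ψ y ^ (k + 2)) y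
      (Kf k ψ p p1 (rho y) * uf ψ y ^ k *
        (ef k (af ψ p (rho y)) (bf p p1 (rho y)) * (2 * rho y)⁻¹ * uf ψ y ^ 2
          + (k + 2) * (ψ (rho y) * p (rho y))))
      ((k + 2) * (Kf k ψ p p1 (rho y) * uf ψ y ^ k) * y 0) := by
    filter_upwards [hev] with y hy
    have h1 := (hK y hy).mul ((hDu y).pow' (hupos y).ne' (k + 2))
    have := hupos y
    refine h1.congr ?_ ?_
    · push_cast
      field_simp
      ring
    · push_cast
      field_simp
      ring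
  -- second derivatives
  have hKx := hK x hx
  have hMx : D (fun y => Kf k ψ p p1 (rho y) * uf ψ y ^ k) x (M * (e / (2 * ρ) + k * q / u ^ 2))
      (M * k * x 0 / u ^ 2) := by
    have h1 := hKx.mul ((hDu x).pow' (hupos x).ne' k)
    have := hupos x
    subst hρ ha hbb hc hM hq he hd
    subst hu
    refine h1.congr ?_ ?_
    · field_simp
      ring
    · field_simp
      ring
  have hinv : D (fun y => (2 * rho y)⁻¹) x (-(1 / (2 * ρ ^ 2))) 0 := by
    have h1 : HasDerivAt (fun r : ℝ => (2 * r)⁻¹) _ (rho x) :=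
      ((hasDerivAt_id' (rho x)).const_mul 2).inv (by positivity)
    have h2 := (D_rho x).comp h1
    refine h2.congr ?_ ?_
    · rw [hρ]
      field_simp
    · simp
  have hE : D (fun y => ef k (af ψ p (rho y)) (bf p p1 (rho y))) x (d / (2 * ρ)) 0 := by
    have h1 := (D_rho x).comp (hasDerivAt_ef hψ hp hp1 hp0 hk hx (hb _ hx))
    refine h1.congr ?_ ?_
    · rw [hd, ha, hbb, hρ, mul_one]
    · simp
  have hQ : D (fun y => ψ (rho y) * p (rho y)) x (a * c * (a + b - 1) / (2 * ρ) ^ 2) 0 := by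
    have h1 := ((D_rho x).comp (hp _ hx.le)).mul ((D_rho x).comp (hp1 _ hx.le))
    refine h1.congr ?_ ?_
    · have h0 := hψ _ hx.le
      have h00 := hp0 _ hx.le
      rw [hbb, ha, hc, hρ]
      unfold af bf
      field_simp
      ring
    · simp
  have hU2 : D (fun y => uf ψ y ^ 2) x (2 * q) (2 * x 0) := by
    have h1 := (hDu x).pow' (hupos x).ne' 2
    have := hupos x
    refine h1.congr ?_ ?_
    · rw [hq, hρ]
      push_cast
      field_simp
    · push_cast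
      field_simp
  have hS := hMx.mul (((hE.mul hinv).mul hU2).add ((D_const x ((k : ℝ) + 2)).mul hQ))
  have hW := ((D_const x ((k : ℝ) + 2)).mul hMx).mul (D_zero x)
  have hux := hupos x
  have hρ0 : 0 < ρ := by rw [hρ]; exact hx
  have hq2 : q = a * c / (2 * ρ) := by
    have h0 := hψ _ hx.le
    rw [hq, ha, hc]
    unfold af
    rw [hρ]
    field_simp
  have key := hess_eq_blk' (A := fun y => Kf k ψ p p1 (rho y) * uf ψ y ^ k *
        (ef k (af ψ p (rho y)) (bf p p1 (rho y)) * (2 * rho y)⁻¹ * uf ψ y ^ 2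
          + (k + 2) * (ψ (rho y) * p (rho y))))
      (T := fun y => (k + 2) * (Kf k ψ p p1 (rho y) * uf ψ y ^ k) * y 0)
      (c := M * ((e + k * a * c / u ^ 2) * (e * u ^ 2 + (k + 2) * a * c)
        + (d - 2 * e) * u ^ 2 + 2 * e * a * c
          + (k + 2) * a * c * (a + b - 1)) / (2 * ρ) ^ 2)
      (t := (k + 2) * M * x 0 * (e + k * a * c / u ^ 2) / (2 * ρ))
      (δ := (k + 2) * M * (1 + k * x 0 ^ 2 / u ^ 2)) hgrad (hS.congr ?_ ?_) (hW.congr ?_ ?_)
  · rw [key]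
    congr 1
    rw [← hρ, ← ha, ← hbb, ← he, ← hu, ← hM, ← hq]
    field_simp
  · rw [← hρ, ← ha, ← hbb, ← he, ← hu, ← hM, ← hq, hq2]
    rw [← hu] at hux
    field_simp
    ring
  · rw [← hρ, ← ha, ← hbb, ← he, ← hu, ← hM, ← hq, hq2]
    rw [← hu] at hux
    field_simp
    ring
  · rw [← hρ, ← hu, ← hM, hq2]
    rw [← hu] at hux
    field_simp
    ring
  · rw [← hρ, ← hu, ← hM]
    rw [← hu] at hux
    field_simp
    ring

end

end Vale.Agent.P252
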