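import Mathlib
import Vale.Agent.P252.Defs
import Vale.Agent.P252.Blk
import Vale.Agent.P252.Calc
import Vale.Agent.P252.Geom
import Vale.Agent.P252.Alg
import Vale.Agent.P252.Geom2
import Vale.Agent.P252.Geom3

/-!
The affine maximal equation for `u(x', t) = √(ψ(|x'|²/2)² + t²)` away from `x' = 0`.
-/

namespace Vale.Agent.P252

open Matrix Filter Topology

variable {k : ℕ}

lemma sum_zero (k α β γ δ S R T E r Δ : ℝ) (hα : α ≠ 0) (hΔ : Δ = (α + β * r) * δ - γ ^ 2 * r)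
    (hΔ0 : Δ ≠ 0)
    (hz : (k - 1) * Δ * S + α * ((α + β * r) * E - 2 * γ * T * r + δ * (S + R * r)) = 0) :
    (α + β * r) / Δ * E + 2 * (-γ / Δ) * T * r + k * (1 / α) * S
      + (1 / α * R + (γ ^ 2 - β * δ) / (α * Δ) * S) * r
      + (γ ^ 2 - β * δ) / (α * Δ) * R * r ^ 2 = 0 := by
  have : (α + β * r) / Δ * E + 2 * (-γ / Δ) * T * r + k * (1 / α) * S
      + (1 / α * R + (γ ^ 2 - β * δ) / (α * Δ) * S) * r
      + (γ ^ 2 - β * δ) / (α * Δ) * R * r ^ 2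
      = ((k - 1) * Δ * S + α * ((α + β * r) * E - 2 * γ * T * r + δ * (S + R * r))) / (α * Δ)
        + (S + R * r) * (Δ - ((α + β * r) * δ - γ ^ 2 * r)) / (α * Δ) := by
    field_simp
    ring
  rw [this, hz, ← hΔ]
  simp

section

variable {ψ p p1 : ℝ → ℝ}

lemma pde_away (hψ : ∀ ρ, 0 ≤ ρ → 0 < ψ ρ)
    (hp : ∀ ρ, 0 ≤ ρ → HasDerivAt ψ (p ρ) ρ)
    (hp1 : ∀ ρ, 0 ≤ ρ → HasDerivAt p (p1 ρ) ρ) (hp0 : ∀ ρ, 0 ≤ ρ → 0 < p ρ)
    (hD : ∀ ρ, 0 ≤ ρ → 0 < p ρ + 2 * ρ * p1 ρ)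
    (hk : 1 ≤ k)
    (hb : ∀ ρ, 0 < ρ → HasDerivAt (bf p p1) (fb k (af ψ p ρ) (bf p p1 ρ) / (2 * ρ)) ρ)
    {x : Fin (k + 1) → ℝ} (hx : 0 < rho x) :
    AffineMaximalAt (uf ψ) x := by
  unfold AffineMaximalAt
  have hk' : (1 : ℝ) ≤ k := by exact_mod_cast hk
  have hW := hess_w hψ hp hp1 hp0 hD hk hb hx rfl rfl rfl rfl rfl rfl rfl rfl rfl
  have hU := hess_uf hψ hp hp1 x
  have e1 : ∑ i, ∑ j, (hess (uf ψ) x).det * (hess (uf ψ) x)⁻¹ i j *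
      pd i (pd j (wfun (uf ψ))) x = (hess (uf ψ) x).det *
      ∑ i, ∑ j, (hess (uf ψ) x)⁻¹ i j * hess (wfun (uf ψ)) x i j := by
    rw [Finset.mul_sum]
    refine Finset.sum_congr rfl fun i _ => ?_
    rw [Finset.mul_sum]
    refine Finset.sum_congr rfl fun j _ => ?_
    rw [mul_assoc]
    rfl
  rw [e1, hW, hU]
  have h0 := rho_nonneg x
  have hu := uf_pos hψ x
  have hψ0 := hψ _ h0
  have hp00 := hp0 _ h0
  have hD0 := hD _ h0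
  have hsq := uf_sq ψ x
  have ha0 : 0 < af ψ p (rho x) := by
    unfold af
    positivity
  have hs : 2 * af ψ p (rho x) + k ≠ 0 := by positivity
  have hb0 : 0 < bf p p1 (rho x) := div_pos hD0 hp00
  have ht : x 0 ^ 2 = uf ψ x ^ 2 - ψ (rho x) ^ 2 := by linarith
  have hPa : p (rho x) = af ψ p (rho x) * ψ (rho x) / (2 * rho x) := by
    unfold af
    field_simp
  have hP1 : p1 (rho x) = p (rho x) * (bf p p1 (rho x) - 1) / (2 * rho x) := by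
    unfold bf
    field_simp
    ring
  -- abbreviations
  set Ψ := ψ (rho x) with hΨ
  set P := p (rho x) with hP
  set Q := p1 (rho x) with hQ
  set u := uf ψ x with hu'
  set a := af ψ p (rho x) with ha
  set b := bf p p1 (rho x) with hb'
  set ρ := rho x with hρ
  set t := x 0 with ht'
  set q := Ψ * P with hq
  set M := Kf k ψ p p1 ρ * u ^ k with hM
  have hα : q / u ≠ 0 := by positivity
  have hq2 : q = a * Ψ ^ 2 / (2 * ρ) := by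
    rw [hq, hPa]
    ring
  have hq0 : 0 < q := by positivity
  have hΔ1 : (q / u + ((P ^ 2 + Ψ * Q) / u - q ^ 2 / u ^ 3) * (2 * ρ))
      = q / u * (a + b - a * Ψ ^ 2 / u ^ 2) := by
    rw [hP1, hq, hPa]
    field_simp
    ring
  have hΔ2 : (Ψ ^ 2 * q * b / u ^ 4) = (q / u + ((P ^ 2 + Ψ * Q) / u - q ^ 2 / u ^ 3) * (2 * ρ))
      * (Ψ ^ 2 / u ^ 3) - (-q * t / u ^ 3) ^ 2 * (2 * ρ) := by
    rw [hΔ1]
    have : (-q * t / u ^ 3) ^ 2 = q ^ 2 * t ^ 2 / u ^ 6 := by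
      field_simp
    rw [this, ht, hq2]
    field_simp
    ring
  have hΔ0 : Ψ ^ 2 * q * b / u ^ 4 ≠ 0 := by positivity
  have hinv := blk_inv (tl x) (q / u) ((P ^ 2 + Ψ * Q) / u - q ^ 2 / u ^ 3) (-q * t / u ^ 3)
    (Ψ ^ 2 / u ^ 3) hα (by rw [sum_tl, ← hρ, ← hΔ2]; exact hΔ0)
  rw [hinv, blk_sum]
  rw [sum_tl, ← hρ, ← hΔ2]
  apply mul_eq_zero_of_right
  apply sum_zero _ _ _ _ _ _ _ _ _ _ _ hα hΔ2 hΔ0
  rw [hΔ1]
  have hfin := pde_alg k a b (Ψ ^ 2) u ρ M q hs hu.ne' hx.ne' (by positivity) hq2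
  rw [← hfin]
  have et : t ^ 2 = u ^ 2 - Ψ ^ 2 := ht
  have e3 : 2 * (-q * t / u ^ 3) * ((k + 2) * M * t * (ef k a b + k * a * Ψ ^ 2 / u ^ 2) / (2 * ρ))
      * (2 * ρ) = -(2 * (q * (u ^ 2 - Ψ ^ 2) * ((k + 2) * M * (ef k a b + k * a * Ψ ^ 2 / u ^ 2))
        / u ^ 3)) := by
    rw [← et]
    field_simp
  have e4 : (M *
          ((ef k a b + k * a * Ψ ^ 2 / u ^ 2) * (ef k a b * u ^ 2 + (k + 2) * a * Ψ ^ 2)
          + (ed k a b - 2 * ef k a b) * u ^ 2 + 2 * ef k a b * a * Ψ ^ 2 +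
            (k + 2) * a * Ψ ^ 2 * (a + b - 1)) /
        (2 * ρ) ^ 2) * (2 * ρ) = M *
          ((ef k a b + k * a * Ψ ^ 2 / u ^ 2) * (ef k a b * u ^ 2 + (k + 2) * a * Ψ ^ 2)
          + (ed k a b - 2 * ef k a b) * u ^ 2 + 2 * ef k a b * a * Ψ ^ 2 +
            (k + 2) * a * Ψ ^ 2 * (a + b - 1)) / (2 * ρ) := by
    field_simp
  rw [e3, e4, ← et, sub_neg_eq_add]

end

end Vale.Agent.P252
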