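import Mathlib
import Vale.Agent.P252.Defs
import Vale.Agent.P252.Blk
import Vale.Agent.P252.Calc
import Vale.Agent.P252.Geom
import Vale.Agent.P252.Alg
import Vale.Agent.P252.Geom2
import Vale.Agent.P252.Geom3
import Vale.Agent.P252.Geom4

/-!
The affine maximal equation for `u(x', t) = √(ψ(|x'|²/2)² + t²)` everywhere, and conclusion.
-/

namespace Vale.Agent.P252

open Matrix Filter Topology Set
open scoped ContDiff

variable {k : ℕ}

lemma contDiff_pd {n : ℕ} {f : (Fin n → ℝ) → ℝ} (hf : ContDiff ℝ ∞ f) (i : Fin n) :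
    ContDiff ℝ ∞ (pd i f) := by
  unfold pd
  have h1 : ContDiff ℝ ∞ (fderiv ℝ f) := hf.fderiv_right (by simp)
  exact h1.clm_apply contDiff_const

lemma contDiff_rho : ContDiff ℝ ∞ (rho : (Fin (k + 1) → ℝ) → ℝ) := by
  unfold rho
  fun_prop

section

variable {ψ : ℝ → ℝ} {δ : ℝ}

lemma contDiffAt_ψ (hδ : 0 < δ) (hs : ContDiffOn ℝ ∞ ψ (Ioi (-δ))) {ρ : ℝ} (hρ : 0 ≤ ρ) :
    ContDiffAt ℝ ∞ ψ ρ :=
  hs.contDiffAt (isOpen_Ioi.mem_nhds (by simp only [mem_Ioi]; linarith))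

lemma contDiffOn_deriv (hs : ContDiffOn ℝ ∞ ψ (Ioi (-δ))) :
    ContDiffOn ℝ ∞ (deriv ψ) (Ioi (-δ)) :=
  ((contDiffOn_infty_iff_deriv_of_isOpen isOpen_Ioi).1 hs).2

lemma hasDerivAt_of_contDiffOn (hδ : 0 < δ) (hs : ContDiffOn ℝ ∞ ψ (Ioi (-δ))) :
    ∀ ρ, 0 ≤ ρ → HasDerivAt ψ (deriv ψ ρ) ρ := fun _ hρ =>
  ((contDiffAt_ψ hδ hs hρ).differentiableAt (by simp)).hasDerivAt

lemma contDiff_uf (hδ : 0 < δ) (hs : ContDiffOn ℝ ∞ ψ (Ioi (-δ)))
    (hψ : ∀ ρ, 0 ≤ ρ → 0 < ψ ρ) : ContDiff ℝ ∞ (uf ψ : (Fin (k + 1) → ℝ) → ℝ) := by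
  rw [contDiff_iff_contDiffAt]
  intro x
  have h1 : ContDiffAt ℝ ∞ (fun y : Fin (k + 1) → ℝ => ψ (rho y)) x :=
    (contDiffAt_ψ hδ hs (rho_nonneg x)).comp x contDiff_rho.contDiffAt
  have h2 : ContDiffAt ℝ ∞ (fun y : Fin (k + 1) → ℝ => y 0) x := by fun_prop
  have h3 := (h1.pow 2).add (h2.pow 2)
  have h4 := hψ _ (rho_nonneg x)
  exact h3.sqrt (by positivity)

lemma contDiff_w (hδ : 0 < δ) (hs : ContDiffOn ℝ ∞ ψ (Ioi (-δ)))
    (hψ : ∀ ρ, 0 ≤ ρ → 0 < ψ ρ) (hp0 : ∀ ρ, 0 ≤ ρ → 0 < deriv ψ ρ)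
    (hD : ∀ ρ, 0 ≤ ρ → 0 < deriv ψ ρ + 2 * ρ * deriv (deriv ψ) ρ) (hk : 1 ≤ k) :
    ContDiff ℝ ∞ (wfun (uf ψ) : (Fin (k + 1) → ℝ) → ℝ) := by
  have hs1 := contDiffOn_deriv hs
  have hs2 := contDiffOn_deriv hs1
  have hw : wfun (uf ψ) = fun y : Fin (k + 1) → ℝ =>
      Kf k ψ (deriv ψ) (deriv (deriv ψ)) (rho y) * uf ψ y ^ (k + 2) :=
    funext fun y => wfun_uf hk hψ (hasDerivAt_of_contDiffOn hδ hs)
      (hasDerivAt_of_contDiffOn hδ hs1) hp0 hD y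
  rw [hw, contDiff_iff_contDiffAt]
  intro x
  have h0 := rho_nonneg x
  have hK : ContDiffAt ℝ ∞ (Kf k ψ (deriv ψ) (deriv (deriv ψ))) (rho x) := by
    have c0 := contDiffAt_ψ hδ hs h0
    have c1 := contDiffAt_ψ hδ hs1 h0
    have c2 := contDiffAt_ψ hδ hs2 h0
    have hψ0 := hψ _ h0
    have hp00 := hp0 _ h0
    have hD0 := hD _ h0
    have hb : 0 < bf (deriv ψ) (deriv (deriv ψ)) (rho x) := div_pos hD0 hp00
    have c3 : ContDiffAt ℝ ∞ (bf (deriv ψ) (deriv (deriv ψ))) (rho x) := by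
      unfold bf
      exact (c1.add ((contDiffAt_const.mul contDiffAt_id).mul c2)).div c1 hp00.ne'
    unfold Kf
    refine ContDiffAt.rpow_const_of_ne ?_ ?_
    · exact ((c0.pow _).mul (c1.pow _)).mul c3
    · positivity
  have h1 : ContDiffAt ℝ ∞ (fun y : Fin (k + 1) → ℝ =>
      Kf k ψ (deriv ψ) (deriv (deriv ψ)) (rho y)) x :=
    hK.comp x contDiff_rho.contDiffAt
  exact h1.mul ((contDiff_uf hδ hs hψ).contDiffAt.pow _)

lemma continuous_pde {n : ℕ} {u : (Fin n → ℝ) → ℝ} (hu : ContDiff ℝ ∞ u)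
    (hw : ContDiff ℝ ∞ (wfun u)) (hdet : ∀ x, (hess u x).det ≠ 0) :
    Continuous fun x => ∑ i, ∑ j, ((hess u x).det * (hess u x)⁻¹ i j) *
      pd i (pd j (wfun u)) x := by
  have h1 : ∀ x, ∀ i j, (hess u x).det * (hess u x)⁻¹ i j = (hess u x).adjugate i j := by
    intro x i j
    rw [Matrix.inv_def, Ring.inverse_eq_inv', Matrix.smul_apply, smul_eq_mul, ← mul_assoc,
      mul_inv_cancel₀ (hdet x), one_mul]
  have h2 : Continuous fun x => hess u x := by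
    apply continuous_matrix
    intro i j
    exact (contDiff_pd (contDiff_pd hu j) i).continuous
  have h3 : Continuous fun x => (hess u x).adjugate := h2.matrix_adjugate
  simp only [h1]
  apply continuous_finset_sum
  intro i _
  apply continuous_finset_sum
  intro j _
  exact (h3.matrix_elem i j).mul (contDiff_pd (contDiff_pd hw j) i).continuous

/-- The affine maximal equation holds everywhere. -/
lemma pde_all (hδ : 0 < δ) (hs : ContDiffOn ℝ ∞ ψ (Ioi (-δ)))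
    (hψ : ∀ ρ, 0 ≤ ρ → 0 < ψ ρ) (hp0 : ∀ ρ, 0 ≤ ρ → 0 < deriv ψ ρ)
    (hD : ∀ ρ, 0 ≤ ρ → 0 < deriv ψ ρ + 2 * ρ * deriv (deriv ψ) ρ) (hk : 1 ≤ k)
    (hb : ∀ ρ, 0 < ρ → HasDerivAt (bf (deriv ψ) (deriv (deriv ψ)))
      (fb k (af ψ (deriv ψ) ρ) (bf (deriv ψ) (deriv (deriv ψ)) ρ) / (2 * ρ)) ρ)
    (x : Fin (k + 1) → ℝ) : AffineMaximalAt (uf ψ) x := by
  have hs1 := contDiffOn_deriv hs
  have hd := hasDerivAt_of_contDiffOn hδ hs
  have hd1 := hasDerivAt_of_contDiffOn hδ hs1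
  rcases (rho_nonneg x).lt_or_eq with hx | hx
  · exact pde_away hψ hd hd1 hp0 hD hk hb hx
  · have hcont := continuous_pde (contDiff_uf (k := k) hδ hs hψ) (contDiff_w hδ hs hψ hp0 hD hk)
      (fun x => (posDef_hess_uf hψ hd hd1 hp0 hD x).det_pos.ne')
    obtain ⟨m, rfl⟩ : ∃ m, k = m + 1 := ⟨k - 1, by omega⟩
    set γ : ℝ → (Fin (m + 1 + 1) → ℝ) := fun s => x + s • Pi.single (Fin.succ 0) 1 with hγ
    have hγc : Continuous γ := by
      rw [hγ]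
      fun_prop
    have hx' : ∀ i : Fin (m + 1), x i.succ = 0 := by
      intro i
      have h1 : ∑ i : Fin (m + 1), x i.succ ^ 2 = 0 := by
        unfold rho at hx
        linarith
      have := (Finset.sum_eq_zero_iff_of_nonneg (fun i _ => sq_nonneg (x (Fin.succ i)))).1 h1 i
        (Finset.mem_univ i)
      exact pow_eq_zero_iff (two_ne_zero) |>.1 this
    have hργ : ∀ s, rho (γ s) = s ^ 2 / 2 := by
      intro s
      unfold rho
      rw [hγ]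
      rw [Fin.sum_univ_succ]
      have : ∀ i : Fin m, (x + s • Pi.single (Fin.succ 0) (1 : ℝ) : Fin (m + 1 + 1) → ℝ)
          (Fin.succ (Fin.succ i)) = 0 := by
        intro i
        rw [Pi.add_apply, hx', Pi.smul_apply, Pi.single_eq_of_ne]
        · simp
        · intro h
          exact (Fin.succ_ne_zero i) (Fin.succ_injective _ h)
      simp only [this]
      rw [Pi.add_apply, hx', Pi.smul_apply, Pi.single_eq_same]
      simp
    have hz : ∀ s, s ≠ 0 → (fun x => ∑ i, ∑ j, ((hess (uf ψ) x).det * (hess (uf ψ) x)⁻¹ i j) *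
      pd i (pd j (wfun (uf ψ))) x) (γ s) = 0 := by
      intro s hs0
      apply pde_away hψ hd hd1 hp0 hD hk hb
      rw [hργ]
      positivity
    have h0 : γ 0 = x := by
      rw [hγ]
      simp
    have ht1 : Tendsto (fun s => (fun x => ∑ i, ∑ j, ((hess (uf ψ) x).det *
      (hess (uf ψ) x)⁻¹ i j) * pd i (pd j (wfun (uf ψ))) x) (γ s)) (𝓝[≠] 0)
      (𝓝 ((fun x => ∑ i, ∑ j, ((hess (uf ψ) x).det *
      (hess (uf ψ) x)⁻¹ i j) * pd i (pd j (wfun (uf ψ))) x) (γ 0))) :=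
      ((hcont.comp hγc).tendsto 0).mono_left nhdsWithin_le_nhds
    have ht2 : Tendsto (fun s => (fun x => ∑ i, ∑ j, ((hess (uf ψ) x).det *
      (hess (uf ψ) x)⁻¹ i j) * pd i (pd j (wfun (uf ψ))) x) (γ s)) (𝓝[≠] 0) (𝓝 0) := by
      apply tendsto_const_nhds.congr'
      filter_upwards [self_mem_nhdsWithin] with s hs0
      exact (hz s hs0).symm
    have := tendsto_nhds_unique ht1 ht2
    rw [h0] at this
    exact this

/-- `uf ψ` is not a quadratic polynomial. -/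
lemma uf_not_quadratic (hψ : ∀ ρ, 0 ≤ ρ → 0 < ψ ρ) :
    ¬ ∃ (A : Matrix (Fin (k + 1)) (Fin (k + 1)) ℝ) (b : Fin (k + 1) → ℝ) (c : ℝ),
      ∀ x, uf ψ x = 1 / 2 * (x ⬝ᵥ (A *ᵥ x)) + b ⬝ᵥ x + c := by
  rintro ⟨A, b, c, h⟩
  have key : ∀ s : ℝ, Real.sqrt (ψ 0 ^ 2 + s ^ 2) = 1 / 2 * A 0 0 * s ^ 2 + b 0 * s + c := by
    intro s
    have h1 := h (Pi.single 0 s)
    have h2 : rho (Pi.single 0 s : Fin (k + 1) → ℝ) = 0 := by
      unfold rho
      simp [Pi.single_apply, Fin.succ_ne_zero]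
    unfold uf at h1
    rw [h2, Pi.single_eq_same] at h1
    rw [h1]
    simp [Matrix.mulVec_single]
    ring
  have hψ0 := hψ 0 le_rfl
  set C := ψ 0
  have k0 := key 0
  have k1 := key 1
  have k2 := key (-1)
  have k3 := key 2
  have e0 : Real.sqrt (C ^ 2 + 0 ^ 2) = C := by
    rw [zero_pow two_ne_zero, add_zero, Real.sqrt_sq hψ0.le]
  rw [e0] at k0
  have e1 : Real.sqrt (C ^ 2 + 1 ^ 2) = Real.sqrt (C ^ 2 + (-1) ^ 2) := by norm_num
  have s1 : Real.sqrt (C ^ 2 + 1 ^ 2) ^ 2 = C ^ 2 + 1 ^ 2 := Real.sq_sqrt (by positivity)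
  have s2 : Real.sqrt (C ^ 2 + 2 ^ 2) ^ 2 = C ^ 2 + 2 ^ 2 := Real.sq_sqrt (by positivity)
  rw [k1, k2] at e1
  rw [k1] at s1
  rw [k3] at s2
  have hb : b 0 = 0 := by linarith
  rw [hb] at s1 s2 k0
  have hc : c = C := by linarith
  rw [hc] at s1 s2
  have h5 : (A 0 0) ^ 2 = 0 := by nlinarith
  have h6 : A 0 0 = 0 := by
    exact pow_eq_zero_iff (two_ne_zero) |>.1 h5
  rw [h6] at s1
  norm_num at s1

end

end Vale.Agent.P252
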