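import Mathlib

/-!
Global existence for bounded, globally Lipschitz vector fields; bootstrap of regularity.
-/

namespace Vale.Agent.P252

open Filter Topology Set MeasureTheory
open scoped ContDiff NNReal

section

variable {E : Type*} [NormedAddCommGroup E] [NormedSpace ℝ E]

/-- Global existence for bounded Lipschitz fields. -/
theorem global_ode [CompleteSpace E] {f : ℝ → E → E} {K C : ℝ≥0}
    (hK : ∀ t, LipschitzWith K (f t))
    (hc : ∀ x, Continuous fun t => f t x) (hC : ∀ t x, ‖f t x‖ ≤ C) (t₀ : ℝ) (x₀ : E) :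
    ∃ γ : ℝ → E, γ t₀ = x₀ ∧ ∀ t, HasDerivAt γ (f t (γ t)) t := by
  -- solutions on compact intervals
  have h1 : ∀ n : ℕ, ∃ α : ℝ → E, α t₀ = x₀ ∧ ∀ t ∈ Ioo (t₀ - (n + 1)) (t₀ + (n + 1)),
      HasDerivAt α (f t (α t)) t := by
    intro n
    have hmem : t₀ ∈ Icc (t₀ - ((n : ℝ) + 1)) (t₀ + ((n : ℝ) + 1)) := by
      constructor <;> [skip; skip] <;> nlinarith [Nat.cast_nonneg (α := ℝ) n]
    have hPL : IsPicardLindelof f (tmin := t₀ - ((n : ℝ) + 1)) (tmax := t₀ + ((n : ℝ) + 1))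
        ⟨t₀, hmem⟩ x₀ (C * (n + 1)) 0 C K := by
      refine ⟨fun t _ => (hK t).lipschitzOnWith, fun x _ => (hc x).continuousOn,
        fun t _ x _ => hC t x, ?_⟩
      simp only [add_sub_cancel_left, sub_sub_cancel, max_self, NNReal.coe_zero, sub_zero]
      push_cast
      exact le_rfl
    obtain ⟨α, hα0, hα⟩ := hPL.exists_eq_forall_mem_Icc_hasDerivWithinAt₀
    refine ⟨α, hα0, fun t ht => ?_⟩
    exact (hα t (Ioo_subset_Icc_self ht)).hasDerivAt (Icc_mem_nhds ht.1 ht.2)
  choose α hα0 hα using h1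
  have huniq : ∀ m n : ℕ, m ≤ n → EqOn (α m) (α n) (Ioo (t₀ - (m + 1)) (t₀ + (m + 1))) := by
    intro m n hmn
    have hmn' : (m : ℝ) ≤ n := by exact_mod_cast hmn
    have hm0 : (0 : ℝ) ≤ m := Nat.cast_nonneg m
    apply ODE_solution_unique_of_mem_Ioo (v := f) (s := fun _ => univ) (K := K)
      (fun t _ => (hK t).lipschitzOnWith) (t₀ := t₀)
    · constructor <;> linarith
    · exact fun t ht => ⟨hα m t ht, mem_univ _⟩
    · exact fun t ht => ⟨hα n t ⟨by linarith [ht.1], by linarith [ht.2]⟩, mem_univ _⟩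
    · rw [hα0, hα0]
  refine ⟨fun t => α ⌈|t - t₀|⌉₊ t, ?_, ?_⟩
  · simp [hα0]
  · intro t
    set N := ⌈|t - t₀|⌉₊ with hN
    have ht1 : |t - t₀| ≤ N := Nat.le_ceil _
    have htm : t ∈ Ioo (t₀ - (((N : ℕ) : ℝ) + 1)) (t₀ + (((N : ℕ) : ℝ) + 1)) := by
      have := abs_le.1 ht1
      constructor <;> linarith
    have hev : (fun t => α ⌈|t - t₀|⌉₊ t) =ᶠ[𝓝 t] α (N + 1) := by
      filter_upwards [isOpen_Ioo.mem_nhds htm] with s hs
      have h2 : |s - t₀| ≤ (N + 1 : ℕ) := by
        rw [abs_le]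
        push_cast
        constructor <;> linarith [hs.1, hs.2]
      have h3 : ⌈|s - t₀|⌉₊ ≤ N + 1 := Nat.ceil_le.2 h2
      apply huniq _ _ h3
      have h4 : |s - t₀| ≤ ⌈|s - t₀|⌉₊ := Nat.le_ceil _
      have := abs_le.1 h4
      constructor <;> linarith
    have h5 : t ∈ Ioo (t₀ - (((N + 1 : ℕ) : ℝ) + 1)) (t₀ + (((N + 1 : ℕ) : ℝ) + 1)) := by
      push_cast
      constructor <;> linarith [htm.1, htm.2]
    have h6 := (hα (N + 1) t h5).congr_of_eventuallyEq hev
    have h7 := hev.self_of_nhds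
    rw [← h7] at h6
    exact h6

/-- Bootstrap of regularity. -/
theorem bootstrap {F : ℝ × E → E} {Y : ℝ → E} {I : Set ℝ} (hI : IsOpen I)
    (hY : ∀ t ∈ I, HasDerivAt Y (F (t, Y t)) t) (hF : ∀ t ∈ I, ContDiffAt ℝ ∞ F (t, Y t)) :
    ContDiffOn ℝ ∞ Y I := by
  rw [contDiffOn_infty]
  intro n
  induction n with
  | zero =>
    simp only [Nat.cast_zero, contDiffOn_zero]
    exact fun t ht => (hY t ht).continuousAt.continuousWithinAt
  | succ n ih =>
    rw [Nat.cast_add, Nat.cast_one, contDiffOn_succ_iff_deriv_of_isOpen hI]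
    refine ⟨fun t ht => (hY t ht).differentiableAt.differentiableWithinAt, fun h =>
      absurd h (by exact_mod_cast (WithTop.natCast_ne_top n)), ?_⟩
    have h1 : ContDiffOn ℝ n (fun t => F (t, Y t)) I := by
      intro t ht
      have h2 : ContDiffAt ℝ n (fun t => (t, Y t)) t :=
        contDiffAt_id.prodMk (ih.contDiffAt (hI.mem_nhds ht))
      have h3 : ContDiffAt ℝ n F (t, Y t) := (hF t ht).of_le (by exact_mod_cast le_top)
      exact (h3.comp t h2).contDiffWithinAt
    exact h1.congr fun t ht => (hY t ht).deriv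

end

/-- A function with `g' ≥ -C g` stays positive. -/
lemma pos_of_deriv_ge {g g' : ℝ → ℝ} {C s t : ℝ} (hst : s ≤ t)
    (hg : ∀ x ∈ Icc s t, HasDerivAt g (g' x) x) (hC : ∀ x ∈ Icc s t, -C * g x ≤ g' x)
    (h0 : 0 < g s) : 0 < g t := by
  have h1 : ∀ x ∈ Icc s t, HasDerivAt (fun x => g x * Real.exp (C * x))
      (g' x * Real.exp (C * x) + g x * (Real.exp (C * x) * (C * 1))) x := by
    intro x hx
    exact (hg x hx).mul (((hasDerivAt_id' x).const_mul C).exp)
  have hmono : MonotoneOn (fun x => g x * Real.exp (C * x)) (Icc s t) := by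
    apply monotoneOn_of_deriv_nonneg (convex_Icc s t)
    · exact fun x hx => (h1 x hx).continuousAt.continuousWithinAt
    · rw [interior_Icc]
      exact fun x hx =>
        (h1 x (Ioo_subset_Icc_self hx)).differentiableAt.differentiableWithinAt
    · rw [interior_Icc]
      intro x hx
      have hx' := Ioo_subset_Icc_self hx
      rw [(h1 x hx').deriv]
      have h2 := hC x hx'
      have h3 := Real.exp_pos (C * x)
      have : g' x * Real.exp (C * x) + g x * (Real.exp (C * x) * (C * 1))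
        = (g' x - (-C * g x)) * Real.exp (C * x) := by ring
      rw [this]
      exact mul_nonneg (by linarith) h3.le
  have h4 := hmono (left_mem_Icc.2 hst) (right_mem_Icc.2 hst) hst
  have h5 : 0 < g s * Real.exp (C * s) := mul_pos h0 (Real.exp_pos _)
  have h6 : 0 < g t * Real.exp (C * t) := lt_of_lt_of_le h5 h4
  exact pos_of_mul_pos_left h6 (Real.exp_pos _).le

end Vale.Agent.P252
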