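import Mathlib
import Vale.Agent.P252.Avg

/-!
Local existence for the Volterra type equation
`X'(ρ) = Φ(ρ, X(ρ), avg j (g ∘ X) ρ)`, `X(0) = x₀`.
-/

namespace Vale.Agent.P252

open Filter Topology Set MeasureTheory
open scoped ContDiff NNReal BoundedContinuousFunction

section

variable {E : Type*} [NormedAddCommGroup E] [NormedSpace ℝ E] [CompleteSpace E]

/-- right-hand side -/
noncomputable def vrhs (Φ : ℝ × E × ℝ → E) (g : E → ℝ) (j : ℕ) (X : ℝ → E) (s : ℝ) : E :=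
  Φ (s, X s, avg j (fun r => g (X r)) s)

omit [NormedSpace ℝ E] [CompleteSpace E] in
lemma continuous_vrhs {Φ : ℝ × E × ℝ → E} {g : E → ℝ} {j : ℕ} {X : ℝ → E} (hΦ : Continuous Φ)
    (hg : Continuous g) (hX : Continuous X) : Continuous (vrhs Φ g j X) := by
  unfold vrhs
  exact hΦ.comp (continuous_id.prodMk (hX.prodMk (continuous_avg (hg.comp hX) j)))

/-- The Picard type operator. -/
noncomputable def vop (Φ : ℝ × E × ℝ → E) (g : E → ℝ) (j : ℕ) (x₀ : E) (δ : ℝ) (X : ℝ → E)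
    (ρ : ℝ) : E :=
  x₀ + ∫ s in (0 : ℝ)..clamp δ ρ, vrhs Φ g j X s

omit [CompleteSpace E] in
lemma continuous_vop {Φ : ℝ × E × ℝ → E} {g : E → ℝ} {j : ℕ} {x₀ : E} {δ : ℝ} {X : ℝ → E}
    (hΦ : Continuous Φ) (hg : Continuous g) (hX : Continuous X) :
    Continuous (vop Φ g j x₀ δ X) := by
  unfold vop
  have h1 : Continuous fun t : ℝ => ∫ s in (0 : ℝ)..t, vrhs Φ g j X s :=
    intervalIntegral.continuous_primitive
      (fun a b => (continuous_vrhs hΦ hg hX).intervalIntegrable a b) 0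
  exact continuous_const.add (h1.comp (continuous_clamp δ))

omit [CompleteSpace E] in
lemma vop_bounded {Φ : ℝ × E × ℝ → E} {g : E → ℝ} {j : ℕ} {x₀ : E} {δ : ℝ} (hδ : 0 ≤ δ)
    {X : ℝ → E}
    (hΦ : Continuous Φ) (hg : Continuous g) (hX : Continuous X) :
    ∃ C, ∀ ρ, ‖vop Φ g j x₀ δ X ρ‖ ≤ C := by
  obtain ⟨C, hC⟩ := (isCompact_Icc (a := -δ) (b := δ)).exists_bound_of_continuousOn
    (continuous_vop (j := j) (x₀ := x₀) (δ := δ) hΦ hg hX).continuousOn
  refine ⟨C, fun ρ => ?_⟩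
  have h1 := hC _ (clamp_mem (x := ρ) hδ)
  have h2 : vop Φ g j x₀ δ X (clamp δ ρ) = vop Φ g j x₀ δ X ρ := by
    unfold vop
    rw [clamp_of_mem (clamp_mem (x := ρ) hδ)]
  rwa [h2] at h1

lemma abs_avg_le {f : ℝ → ℝ} (j : ℕ) {C : ℝ} (hC : ∀ x, |f x| ≤ C) (ρ : ℝ) :
    |avg j f ρ| ≤ C := by
  unfold avg
  have h := intervalIntegral.norm_integral_le_of_norm_le_const (a := (0 : ℝ)) (b := 1) (C := C)
    (f := fun τ => τ ^ j * f (ρ * τ ^ 2)) ?_
  · simpa using h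
  · intro τ hτ
    rw [uIoc_of_le zero_le_one] at hτ
    rw [norm_mul, Real.norm_eq_abs, Real.norm_eq_abs, abs_of_nonneg (pow_nonneg hτ.1.le _)]
    have h2 : τ ^ j ≤ 1 := pow_le_one₀ hτ.1.le hτ.2
    have h3 : 0 ≤ τ ^ j := pow_nonneg hτ.1.le _
    have h4 := hC (ρ * τ ^ 2)
    have h5 := abs_nonneg (f (ρ * τ ^ 2))
    nlinarith

lemma avg_sub {f g : ℝ → ℝ} (hf : Continuous f) (hg : Continuous g) (j : ℕ) (ρ : ℝ) :
    avg j f ρ - avg j g ρ = avg j (fun x => f x - g x) ρ := by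
  unfold avg
  rw [← intervalIntegral.integral_sub]
  · congr 1
    funext τ
    ring
  · exact (by fun_prop : Continuous fun τ : ℝ => τ ^ j * f (ρ * τ ^ 2)).intervalIntegrable _ _
  · exact (by fun_prop : Continuous fun τ : ℝ => τ ^ j * g (ρ * τ ^ 2)).intervalIntegrable _ _

/-- Existence for globally Lipschitz data. -/
theorem volterra_lip {Φ : ℝ × E × ℝ → E} {K₁ : ℝ≥0} (hΦ : LipschitzWith K₁ Φ) {g : E → ℝ}
    {K₂ : ℝ≥0} (hg : LipschitzWith K₂ g) (x₀ : E) (j : ℕ) :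
    ∃ δ > 0, ∃ X : ℝ → E, Continuous X ∧ X 0 = x₀ ∧
      ∀ ρ ∈ Ioo (-δ) δ, HasDerivAt X (Φ (ρ, X ρ, avg j (fun r => g (X r)) ρ)) ρ := by
  set L : ℝ := K₁ * max 1 K₂ with hL
  have hL0 : 0 ≤ L := by positivity
  set δ : ℝ := 1 / (2 * (L + 1)) with hδ
  have hδ0 : 0 < δ := by positivity
  have hδL : δ * L ≤ 1 / 2 := by
    rw [hδ]
    rw [div_mul_eq_mul_div, div_le_div_iff₀ (by positivity) (by norm_num)]
    nlinarith
  have hΦc := hΦ.continuous
  have hgc := hg.continuous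
  -- the operator
  have hex : ∀ X : ℝ →ᵇ E, ∃ Y : ℝ →ᵇ E, ∀ ρ, Y ρ = vop Φ g j x₀ δ X ρ := by
    intro X
    obtain ⟨C, hC⟩ := vop_bounded (j := j) (x₀ := x₀) hδ0.le hΦc hgc X.continuous
    exact ⟨BoundedContinuousFunction.ofNormedAddCommGroup _
      (continuous_vop (j := j) (x₀ := x₀) (δ := δ) hΦc hgc X.continuous) C hC, fun ρ => rfl⟩
  choose T hT using hex
  have hlip : ∀ X Y : ℝ →ᵇ E, ∀ s, ‖vrhs Φ g j X s - vrhs Φ g j Y s‖ ≤ L * dist X Y := by
    intro X Y s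
    have h1 := hΦ.dist_le_mul (s, X s, avg j (fun r => g (X r)) s)
      (s, Y s, avg j (fun r => g (Y r)) s)
    rw [Prod.dist_eq, Prod.dist_eq, dist_self] at h1
    have h2 : dist (X s) (Y s) ≤ dist X Y := BoundedContinuousFunction.dist_coe_le_dist s
    have h3 : dist (avg j (fun r => g (X r)) s) (avg j (fun r => g (Y r)) s) ≤ K₂ * dist X Y := by
      rw [Real.dist_eq, avg_sub (f := fun r => g (X r)) (g := fun r => g (Y r))
        (hgc.comp X.continuous) (hgc.comp Y.continuous)]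
      apply abs_avg_le
      intro x
      rw [← Real.dist_eq]
      calc dist (g (X x)) (g (Y x)) ≤ K₂ * dist (X x) (Y x) := hg.dist_le_mul _ _
        _ ≤ K₂ * dist X Y := by
          gcongr
          exact BoundedContinuousFunction.dist_coe_le_dist x
    have h4 : max 0 (max (dist (X s) (Y s))
        (dist (avg j (fun r => g (X r)) s) (avg j (fun r => g (Y r)) s)))
        ≤ max 1 K₂ * dist X Y := by
      have hd : 0 ≤ dist X Y := dist_nonneg
      apply max_le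
      · positivity
      · apply max_le
        · calc _ ≤ 1 * dist X Y := by rw [one_mul]; exact h2
            _ ≤ _ := by
              gcongr
              exact le_max_left _ _
        · refine h3.trans ?_
          gcongr
          exact le_max_right _ _
    rw [← dist_eq_norm]
    calc _ ≤ K₁ * max 0 (max (dist (X s) (Y s))
        (dist (avg j (fun r => g (X r)) s) (avg j (fun r => g (Y r)) s))) := h1
      _ ≤ K₁ * (max 1 K₂ * dist X Y) := by gcongr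
      _ = L * dist X Y := by rw [hL, mul_assoc]
  have hcontr : ContractingWith (1 / 2) T := by
    refine ⟨by
      rw [← NNReal.coe_lt_coe]
      norm_num, ?_⟩
    apply LipschitzWith.of_dist_le_mul
    intro X Y
    have hc2 : (((1 / 2 : ℝ≥0) : ℝ≥0) : ℝ) = 1 / 2 := by norm_num
    rw [hc2, BoundedContinuousFunction.dist_le (by positivity)]
    intro ρ
    rw [hT, hT]
    unfold vop
    rw [dist_add_left, dist_eq_norm, ← intervalIntegral.integral_sub
      ((continuous_vrhs hΦc hgc X.continuous).intervalIntegrable _ _)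
      ((continuous_vrhs hΦc hgc Y.continuous).intervalIntegrable _ _)]
    calc _ ≤ L * dist X Y * |clamp δ ρ - 0| :=
          intervalIntegral.norm_integral_le_of_norm_le_const fun s _ => hlip X Y s
      _ ≤ L * dist X Y * δ := by
          gcongr
          rw [sub_zero]
          exact abs_le.2 (clamp_mem hδ0.le)
      _ = (δ * L) * dist X Y := by ring
      _ ≤ 1 / 2 * dist X Y := by gcongr
  set X := ContractingWith.fixedPoint T hcontr with hX
  have hfix : T X = X := hcontr.fixedPoint_isFixedPt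
  have hXeq : ∀ ρ, X ρ = vop Φ g j x₀ δ X ρ := by
    intro ρ
    rw [← hT, hfix]
  refine ⟨δ, hδ0, X, X.continuous, ?_, ?_⟩
  · rw [hXeq]
    unfold vop
    rw [clamp_of_mem ⟨by linarith, hδ0.le⟩]
    simp
  · intro ρ hρ
    have hcv := continuous_vrhs (j := j) hΦc hgc X.continuous
    have h1 : HasDerivAt (fun t => x₀ + ∫ s in (0 : ℝ)..t, vrhs Φ g j X s) (vrhs Φ g j X ρ) ρ :=
      (intervalIntegral.integral_hasDerivAt_right (hcv.intervalIntegrable _ _)
        (hcv.stronglyMeasurableAtFilter _ _) hcv.continuousAt).const_add x₀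
    have h2 : (X : ℝ → E) =ᶠ[𝓝 ρ] fun t => x₀ + ∫ s in (0 : ℝ)..t, vrhs Φ g j X s := by
      filter_upwards [isOpen_Ioo.mem_nhds hρ] with t ht
      rw [hXeq]
      unfold vop
      rw [clamp_of_mem (Ioo_subset_Icc_self ht)]
    exact h1.congr_of_eventuallyEq h2

end

/-- Existence for locally `C¹` data, in the plane. -/
theorem volterra_local {Φ : ℝ × (ℝ × ℝ) × ℝ → ℝ × ℝ} {g : ℝ × ℝ → ℝ} {x₀ : ℝ × ℝ} {j : ℕ}
    (hΦ : ContDiffAt ℝ 1 Φ (0, x₀, g x₀ / (j + 1))) (hg : ContDiffAt ℝ 1 g x₀) :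
    ∃ δ > 0, ∃ X : ℝ → ℝ × ℝ, Continuous X ∧ X 0 = x₀ ∧
      ∀ ρ ∈ Ioo (-δ) δ, HasDerivAt X (Φ (ρ, X ρ, avg j (fun r => g (X r)) ρ)) ρ := by
  obtain ⟨K₁, t₁, ht₁, hL₁⟩ := hΦ.exists_lipschitzOnWith
  obtain ⟨K₂, t₂, ht₂, hL₂⟩ := hg.exists_lipschitzOnWith
  obtain ⟨Φ₁, hΦ₁, hE₁⟩ := (LipschitzWith.prod_fst.comp_lipschitzOnWith hL₁).extend_real
  obtain ⟨Φ₂, hΦ₂, hE₂⟩ := (LipschitzWith.prod_snd.comp_lipschitzOnWith hL₁).extend_real
  obtain ⟨g', hg', hEg⟩ := hL₂.extend_real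
  obtain ⟨δ, hδ, X, hX, hX0, hder⟩ := volterra_lip (hΦ₁.prodMk hΦ₂) hg' x₀ j
  -- near 0 everything is in the good neighbourhoods
  have hXt : Tendsto X (𝓝 0) (𝓝 x₀) := by
    have := hX.tendsto 0
    rwa [hX0] at this
  have hev1 : ∀ᶠ ρ in 𝓝 (0 : ℝ), X ρ ∈ t₂ := hXt ht₂
  have hgx : g' x₀ = g x₀ := (hEg (mem_of_mem_nhds ht₂)).symm
  have havg : Tendsto (fun ρ => (ρ, X ρ, avg j (fun r => g' (X r)) ρ)) (𝓝 0)
      (𝓝 (0, x₀, g x₀ / (j + 1))) := by
    have hc : Continuous fun ρ : ℝ => (ρ, X ρ, avg j (fun r => g' (X r)) ρ) :=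
      continuous_id.prodMk (hX.prodMk (continuous_avg (hg'.continuous.comp hX) j))
    have h0 := hc.tendsto 0
    have h1 : avg j (fun r => g' (X r)) 0 = g x₀ / (j + 1) := by
      rw [← hgx, ← avg_const j (g' x₀) 0]
      unfold avg
      simp [hX0]
    rwa [hX0, h1] at h0
  have hev2 : ∀ᶠ ρ in 𝓝 (0 : ℝ), (ρ, X ρ, avg j (fun r => g' (X r)) ρ) ∈ t₁ := havg ht₁
  obtain ⟨δ₁, hδ₁, hball⟩ := Metric.eventually_nhds_iff.1 (hev1.and hev2)
  refine ⟨min δ (δ₁ / 2), by positivity, X, hX, hX0, ?_⟩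
  intro ρ hρ
  have hρ1 : ρ ∈ Ioo (-δ) δ := by
    refine ⟨?_, lt_of_lt_of_le hρ.2 (min_le_left _ _)⟩
    have := hρ.1
    have := min_le_left δ (δ₁ / 2)
    linarith
  have hρ2 : ρ ∈ Icc (-(δ₁ / 2)) (δ₁ / 2) := by
    have h1 := hρ.1
    have h2 := hρ.2
    have h3 := min_le_right δ (δ₁ / 2)
    constructor <;> linarith
  have h1 := hder ρ hρ1
  have h2 : avg j (fun r => g' (X r)) ρ = avg j (fun r => g (X r)) ρ := by
    apply avg_congr (r := δ₁ / 2) _ _ hρ2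
    intro x hx
    have : dist x 0 < δ₁ := by
      rw [Real.dist_eq, sub_zero]
      have := abs_le.2 hx
      linarith
    exact (hEg (hball this).1).symm
  have h3 : dist ρ 0 < δ₁ := by
    rw [Real.dist_eq, sub_zero]
    have := abs_le.2 hρ2
    linarith
  have h4 := (hball h3).2
  have h5 : (Φ₁ (ρ, X ρ, avg j (fun r => g' (X r)) ρ), Φ₂ (ρ, X ρ, avg j (fun r => g' (X r)) ρ))
      = Φ (ρ, X ρ, avg j (fun r => g (X r)) ρ) := by
    rw [← hE₁ h4, ← hE₂ h4, h2]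
    rfl
  rw [← h5]
  exact h1

end Vale.Agent.P252
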