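import Mathlib
import Vale.Agent.P252.Avg
import Vale.Agent.P252.Volterra
import Vale.Agent.P252.Alg
import Vale.Agent.P252.Geom2

/-!
The local solution near `ρ = 0`.
-/

namespace Vale.Agent.P252

open Filter Topology Set MeasureTheory
open scoped ContDiff NNReal

/-- `P(m) = (k m)^{1/k}`. -/
noncomputable def Pm (k : ℝ) (m : ℝ) : ℝ := (k * m) ^ (1 / k)

/-- derivative of `Z`. -/
noncomputable def Zm (j : ℕ) (k ρ ψ Z m : ℝ) : ℝ :=
  Z * Pm k m * (2 * (ψ * Z ^ (j + 4)) / (k * m) - 1) / (k * ψ + 4 * ρ * Pm k m)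

lemma contDiffAt_Pm {F : Type*} [NormedAddCommGroup F] [NormedSpace ℝ F] {n : WithTop ℕ∞} {k : ℝ}
    {m : F → ℝ} {x : F}
    (hm : ContDiffAt ℝ n m x) (h : k * m x ≠ 0) : ContDiffAt ℝ n (fun y => Pm k (m y)) x := by
  unfold Pm
  exact (contDiffAt_const.mul hm).rpow_const_of_ne h

lemma contDiffAt_Zm {F : Type*} [NormedAddCommGroup F] [NormedSpace ℝ F] {n : WithTop ℕ∞} {j : ℕ}
    {k : ℝ} {ρ ψ Z m : F → ℝ} {x : F} (hρ : ContDiffAt ℝ n ρ x) (hψ : ContDiffAt ℝ n ψ x)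
    (hZ : ContDiffAt ℝ n Z x)
    (hm : ContDiffAt ℝ n m x) (h : k * m x ≠ 0) (h2 : k * ψ x + 4 * ρ x * Pm k (m x) ≠ 0) :
    ContDiffAt ℝ n (fun y => Zm j k (ρ y) (ψ y) (Z y) (m y)) x := by
  unfold Zm
  have hP := contDiffAt_Pm hm h
  refine ContDiffAt.div ((hZ.mul hP).mul ?_) ?_ h2
  · exact ((contDiffAt_const.mul (hψ.mul (hZ.pow _))).div (contDiffAt_const.mul hm) h).sub
      contDiffAt_const
  · exact (contDiffAt_const.mul hψ).add ((contDiffAt_const.mul hρ).mul hP)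

/-- local solution of the first order system. -/
lemma local_exists (j : ℕ) : ∃ δ > 0, ∃ ψ Z : ℝ → ℝ, ψ 0 = 1 ∧ Z 0 = 1 ∧
    ∀ ρ ∈ Ioo (-δ) δ, 0 < ψ ρ ∧ 0 < Z ρ ∧ 0 < avg j (fun r => ψ r * Z r ^ (j + 4)) ρ ∧
      0 < ((j : ℝ) + 1) * ψ ρ + 4 * ρ * Pm (j + 1) (avg j (fun r => ψ r * Z r ^ (j + 4)) ρ) ∧
      HasDerivAt ψ (Pm (j + 1) (avg j (fun r => ψ r * Z r ^ (j + 4)) ρ)) ρ ∧
      HasDerivAt Z (Zm j (j + 1) ρ (ψ ρ) (Z ρ) (avg j (fun r => ψ r * Z r ^ (j + 4)) ρ)) ρ := by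
  have hk0 : ((j : ℝ) + 1) ≠ 0 := by positivity
  have hm0 : ((j : ℝ) + 1) * (1 / ((j : ℝ) + 1)) = 1 := by field_simp
  have hP0 : Pm ((j : ℝ) + 1) (1 / ((j : ℝ) + 1)) = 1 := by
    unfold Pm
    rw [hm0, Real.one_rpow]
  have hg : ContDiffAt ℝ 1 (fun x : ℝ × ℝ => x.1 * x.2 ^ (j + 4)) ((1 : ℝ), (1 : ℝ)) := by
    fun_prop
  have hΦ : ContDiffAt ℝ 1 (fun q : ℝ × (ℝ × ℝ) × ℝ => (Pm (j + 1) q.2.2,
      Zm j (j + 1) q.1 q.2.1.1 q.2.1.2 q.2.2)) (0, ((1 : ℝ), (1 : ℝ)),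
      (fun x : ℝ × ℝ => x.1 * x.2 ^ (j + 4)) ((1 : ℝ), (1 : ℝ)) / (j + 1)) := by
    refine ContDiffAt.prodMk ?_ ?_
    · apply contDiffAt_Pm (by fun_prop)
      simp only [one_pow, mul_one]
      rw [hm0]
      norm_num
    · apply contDiffAt_Zm (by fun_prop) (by fun_prop) (by fun_prop) (by fun_prop)
      · simp only [one_pow, mul_one]
        rw [hm0]
        norm_num
      · simp only [mul_one, mul_zero, zero_mul, add_zero]
        exact hk0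
  obtain ⟨δ, hδ, X, hX, hX0, hder⟩ := volterra_local hΦ hg
  set m : ℝ → ℝ := avg j (fun r => (X r).1 * (X r).2 ^ (j + 4)) with hm
  have hmc : Continuous m := continuous_avg (by fun_prop) j
  have hmz : m 0 = 1 / ((j : ℝ) + 1) := by
    rw [hm, ← avg_const j 1 0]
    unfold avg
    simp [hX0]
  have e1 : ∀ᶠ ρ in 𝓝 (0 : ℝ), 0 < (X ρ).1 := by
    apply (hX.fst.tendsto 0).eventually_const_lt
    simp [hX0]
  have e2 : ∀ᶠ ρ in 𝓝 (0 : ℝ), 0 < (X ρ).2 := by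
    apply (hX.snd.tendsto 0).eventually_const_lt
    simp [hX0]
  have e3 : ∀ᶠ ρ in 𝓝 (0 : ℝ), 0 < m ρ := by
    apply (hmc.tendsto 0).eventually_const_lt
    rw [hmz]
    positivity
  have e4 : ∀ᶠ ρ in 𝓝 (0 : ℝ), 0 < ((j : ℝ) + 1) * (X ρ).1 + 4 * ρ * Pm (j + 1) (m ρ) := by
    have hc : ContinuousAt (fun ρ => ((j : ℝ) + 1) * (X ρ).1 + 4 * ρ * Pm (j + 1) (m ρ)) 0 := by
      have h1 : ContinuousAt (fun ρ => Pm (j + 1) (m ρ)) 0 := by
        unfold Pm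
        apply ContinuousAt.rpow_const
        · exact (continuous_const.mul hmc).continuousAt
        · left
          rw [hmz, hm0]
          norm_num
      have h2 : ContinuousAt (fun ρ => (X ρ).1) 0 := hX.fst.continuousAt
      exact (continuousAt_const.mul h2).add ((continuousAt_const.mul continuousAt_id).mul h1)
    apply hc.tendsto.eventually_const_lt
    simp only [hX0, mul_zero, zero_mul, add_zero, mul_one]
    positivity
  obtain ⟨δ₁, hδ₁, hball⟩ := Metric.eventually_nhds_iff.1 (e1.and (e2.and (e3.and e4)))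
  refine ⟨min δ δ₁, by positivity, fun ρ => (X ρ).1, fun ρ => (X ρ).2, by simp [hX0],
    by simp [hX0], ?_⟩
  intro ρ hρ
  have hρ1 : ρ ∈ Ioo (-δ) δ := by
    refine ⟨?_, lt_of_lt_of_le hρ.2 (min_le_left _ _)⟩
    have := hρ.1
    have := min_le_left δ δ₁
    linarith
  have hρ2 : dist ρ 0 < δ₁ := by
    rw [Real.dist_eq, sub_zero, abs_lt]
    have h1 := hρ.1
    have h2 := hρ.2
    have h3 := min_le_right δ δ₁
    constructor <;> linarith
  obtain ⟨h1, h2, h3, h4⟩ := hball hρ2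
  have h5 := hder ρ hρ1
  exact ⟨h1, h2, h3, h4, h5.fst, h5.snd⟩

/-- bootstrap. -/
lemma local_smooth {j : ℕ} {δ : ℝ} {ψ Z : ℝ → ℝ}
    (h : ∀ ρ ∈ Ioo (-δ) δ, 0 < ψ ρ ∧ 0 < Z ρ ∧ 0 < avg j (fun r => ψ r * Z r ^ (j + 4)) ρ ∧
      0 < ((j : ℝ) + 1) * ψ ρ + 4 * ρ * Pm (j + 1) (avg j (fun r => ψ r * Z r ^ (j + 4)) ρ) ∧
      HasDerivAt ψ (Pm (j + 1) (avg j (fun r => ψ r * Z r ^ (j + 4)) ρ)) ρ ∧
      HasDerivAt Z (Zm j (j + 1) ρ (ψ ρ) (Z ρ) (avg j (fun r => ψ r * Z r ^ (j + 4)) ρ)) ρ) :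
    ContDiffOn ℝ ∞ ψ (Ioo (-δ) δ) ∧ ContDiffOn ℝ ∞ Z (Ioo (-δ) δ) := by
  have key : ∀ n : ℕ, ContDiffOn ℝ n ψ (Ioo (-δ) δ) ∧ ContDiffOn ℝ n Z (Ioo (-δ) δ) := by
    intro n
    induction n with
    | zero =>
      simp only [Nat.cast_zero, contDiffOn_zero]
      exact ⟨fun x hx => (h x hx).2.2.2.2.1.continuousAt.continuousWithinAt,
        fun x hx => (h x hx).2.2.2.2.2.continuousAt.continuousWithinAt⟩
    | succ n ih =>
      obtain ⟨h1, h2⟩ := ih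
      have h3 : ContDiffOn ℝ n (avg j (fun r => ψ r * Z r ^ (j + 4))) (Ioo (-δ) δ) :=
        contDiffOn_avg_nat n (h1.mul (h2.pow _)) j
      have ha : ∀ x ∈ Ioo (-δ) δ, ContDiffAt ℝ n ψ x := fun x hx =>
        h1.contDiffAt (isOpen_Ioo.mem_nhds hx)
      have hb : ∀ x ∈ Ioo (-δ) δ, ContDiffAt ℝ n Z x := fun x hx =>
        h2.contDiffAt (isOpen_Ioo.mem_nhds hx)
      have hc : ∀ x ∈ Ioo (-δ) δ, ContDiffAt ℝ n (avg j (fun r => ψ r * Z r ^ (j + 4))) x :=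
        fun x hx => h3.contDiffAt (isOpen_Ioo.mem_nhds hx)
      rw [Nat.cast_add, Nat.cast_one, contDiffOn_succ_iff_deriv_of_isOpen isOpen_Ioo,
        contDiffOn_succ_iff_deriv_of_isOpen isOpen_Ioo]
      have hne : ((n : WithTop ℕ∞) = ⊤) → False := fun h =>
        absurd h (by exact_mod_cast (WithTop.natCast_ne_top n))
      refine ⟨⟨fun x hx => (h x hx).2.2.2.2.1.differentiableAt.differentiableWithinAt,
        fun h => (hne h).elim, ?_⟩,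
        ⟨fun x hx => (h x hx).2.2.2.2.2.differentiableAt.differentiableWithinAt,
        fun h => (hne h).elim, ?_⟩⟩
      · have : ContDiffOn ℝ n (fun ρ => Pm (j + 1) (avg j (fun r => ψ r * Z r ^ (j + 4)) ρ))
            (Ioo (-δ) δ) := by
          intro x hx
          have hm := (h x hx).2.2.1
          exact (contDiffAt_Pm (hc x hx) (by positivity)).contDiffWithinAt
        exact this.congr fun x hx => (h x hx).2.2.2.2.1.deriv
      · have : ContDiffOn ℝ n (fun ρ => Zm j (j + 1) ρ (ψ ρ) (Z ρ)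
            (avg j (fun r => ψ r * Z r ^ (j + 4)) ρ)) (Ioo (-δ) δ) := by
          intro x hx
          have hm := (h x hx).2.2.1
          exact (contDiffAt_Zm contDiffAt_id (ha x hx) (hb x hx) (hc x hx) (by positivity)
            (h x hx).2.2.2.1.ne').contDiffWithinAt
        exact this.congr fun x hx => (h x hx).2.2.2.2.2.deriv
  exact ⟨contDiffOn_infty.2 fun n => (key n).1, contDiffOn_infty.2 fun n => (key n).2⟩

/-- local solution. -/
theorem local_solution (k : ℕ) (hk : 9 ≤ k) : ∃ δ > 0, ∃ ψ : ℝ → ℝ,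
    ContDiffOn ℝ ∞ ψ (Ioo (-δ) δ) ∧
    (∀ ρ ∈ Ioo (-δ) δ, 0 < ψ ρ ∧ 0 < deriv ψ ρ ∧ 0 < deriv ψ ρ + 2 * ρ * deriv (deriv ψ) ρ ∧
      deriv (deriv ψ) ρ * ψ ρ < 5 / 9 * deriv ψ ρ ^ 2) ∧
    (∀ ρ ∈ Ioo 0 δ, HasDerivAt (bf (deriv ψ) (deriv (deriv ψ)))
      (fb k (af ψ (deriv ψ) ρ) (bf (deriv ψ) (deriv (deriv ψ)) ρ) / (2 * ρ)) ρ) := by
  obtain ⟨j, rfl⟩ : ∃ j, k = j + 1 := ⟨k - 1, by omega⟩
  obtain ⟨δ, hδ, ψ, Z, hψ0, hZ0, h⟩ := local_exists j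
  obtain ⟨hsψ, hsZ⟩ := local_smooth h
  set f : ℝ → ℝ := fun r => ψ r * Z r ^ (j + 4) with hf
  set m : ℝ → ℝ := avg j f with hm
  have hsf : ContDiffOn ℝ ∞ f (Ioo (-δ) δ) := hsψ.mul (hsZ.pow _)
  have hsm : ContDiffOn ℝ ∞ m (Ioo (-δ) δ) := contDiffOn_avg hsf j
  have hfd : ∀ x ∈ Ioo (-δ) δ, HasDerivAt f (deriv f x) x := fun x hx =>
    ((hsf.contDiffAt (isOpen_Ioo.mem_nhds hx)).differentiableAt (by simp)).hasDerivAt
  have hsf' : ContDiffOn ℝ ∞ (deriv f) (Ioo (-δ) δ) :=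
    ((contDiffOn_infty_iff_deriv_of_isOpen isOpen_Ioo).1 hsf).2
  have hmd : ∀ x ∈ Ioo (-δ) δ, HasDerivAt m (avg (j + 2) (deriv f) x) x := fun x hx =>
    hasDerivAt_avg hfd hsf'.continuousOn j hx
  have hid : ∀ x ∈ Ioo (-δ) δ, ((j : ℝ) + 1) * m x + 2 * x * avg (j + 2) (deriv f) x = f x :=
    fun x hx => avg_identity hfd hsf'.continuousOn j hx
  have hk0 : (0 : ℝ) < (j : ℝ) + 1 := by positivity
  set P : ℝ → ℝ := fun ρ => Pm (j + 1) (m ρ) with hP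
  have hPd : ∀ x ∈ Ioo (-δ) δ, HasDerivAt P (P x * avg (j + 2) (deriv f) x / ((j + 1) * m x)) x := by
    intro x hx
    have hmx := (h x hx).2.2.1
    have h1 := ((hmd x hx).const_mul ((j : ℝ) + 1)).rpow_const (p := 1 / ((j : ℝ) + 1))
      (Or.inl (by positivity))
    refine h1.congr_deriv ?_
    rw [Real.rpow_sub_one (by positivity), hP]
    unfold Pm
    field_simp
  have hPpos : ∀ x ∈ Ioo (-δ) δ, 0 < P x := by
    intro x hx
    have hmx := (h x hx).2.2.1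
    rw [hP]
    unfold Pm
    positivity
  have hdψ : ∀ x ∈ Ioo (-δ) δ, deriv ψ x = P x := fun x hx => (h x hx).2.2.2.2.1.deriv
  have hddψ : ∀ x ∈ Ioo (-δ) δ, deriv (deriv ψ) x =
      P x * avg (j + 2) (deriv f) x / ((j + 1) * m x) := by
    intro x hx
    have : deriv ψ =ᶠ[𝓝 x] P := by
      filter_upwards [isOpen_Ioo.mem_nhds hx] with y hy
      exact hdψ y hy
    rw [this.deriv_eq]
    exact (hPd x hx).deriv
  have hbf : ∀ x ∈ Ioo (-δ) δ, bf (deriv ψ) (deriv (deriv ψ)) x = f x / ((j + 1) * m x) := by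
    intro x hx
    have hmx := (h x hx).2.2.1
    have hPx := hPpos x hx
    unfold bf
    rw [hdψ x hx, hddψ x hx, ← hid x hx]
    field_simp
  -- value at zero
  have h0 : (0 : ℝ) ∈ Ioo (-δ) δ := ⟨by linarith, hδ⟩
  have hf0 : f 0 = 1 := by
    rw [hf]
    simp [hψ0, hZ0]
  have hm0 : m 0 = 1 / ((j : ℝ) + 1) := by
    have := hid 0 h0
    rw [hf0] at this
    rw [mul_zero, zero_mul, add_zero] at this
    field_simp
    linarith
  have hP0 : P 0 = 1 := by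
    change (((j : ℝ) + 1) * m 0) ^ (1 / ((j : ℝ) + 1)) = 1
    rw [hm0]
    have : ((j : ℝ) + 1) * (1 / ((j : ℝ) + 1)) = 1 := by field_simp
    rw [this, Real.one_rpow]
  have hdf0 : deriv f 0 = 1 + ((j : ℝ) + 4) / ((j : ℝ) + 1) := by
    obtain ⟨-, -, -, -, h5, h6⟩ := h 0 h0
    have h7 : HasDerivAt f _ 0 := h5.mul (h6.pow (j + 4))
    rw [h7.deriv]
    have hPP : Pm ((j : ℝ) + 1) (m 0) = 1 := hP0
    unfold Zm
    simp only [Pi.pow_apply, hψ0, hZ0]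
    rw [hPP, hm0]
    push_cast
    field_simp
    norm_num
  have hav0 : avg (j + 2) (deriv f) 0 = deriv f 0 / ((j : ℝ) + 3) := by
    have : avg (j + 2) (deriv f) 0 = avg (j + 2) (fun _ => deriv f 0) 0 := by
      unfold avg
      simp
    rw [this, avg_const]
    push_cast
    ring
  have hj8 : (8 : ℝ) ≤ j := by
    have : 8 ≤ j := by omega
    exact_mod_cast this
  -- the strict inequality near zero
  have hev : ∀ᶠ x in 𝓝 (0 : ℝ), (P x * avg (j + 2) (deriv f) x / ((j + 1) * m x)) * ψ x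
      < 5 / 9 * P x ^ 2 ∧ 0 < f x := by
    have c1 : ContinuousAt P 0 := (hPd 0 h0).continuousAt
    have c2 : ContinuousAt (avg (j + 2) (deriv f)) 0 :=
      (continuousOn_avg hsf'.continuousOn (j + 2)).continuousAt (isOpen_Ioo.mem_nhds h0)
    have c3 : ContinuousAt m 0 := (hmd 0 h0).continuousAt
    have c4 : ContinuousAt ψ 0 := (h 0 h0).2.2.2.2.1.continuousAt
    have c5 : ContinuousAt f 0 := (hfd 0 h0).continuousAt
    have c6 : ContinuousAt (fun x => 5 / 9 * P x ^ 2 -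
        (P x * avg (j + 2) (deriv f) x / ((j + 1) * m x)) * ψ x) 0 := by
      refine (continuousAt_const.mul (c1.pow 2)).sub ((((c1.mul c2).div
        (continuousAt_const.mul c3) ?_)).mul c4)
      change ((j : ℝ) + 1) * m 0 ≠ 0
      rw [hm0]
      positivity
    have h1 : ∀ᶠ x in 𝓝 (0 : ℝ), 0 < 5 / 9 * P x ^ 2 -
        (P x * avg (j + 2) (deriv f) x / ((j + 1) * m x)) * ψ x := by
      apply c6.tendsto.eventually_const_lt
      rw [hP0, hav0, hm0, hψ0, hdf0]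
      have : ((j : ℝ) + 1) * (1 / ((j : ℝ) + 1)) = 1 := by field_simp
      rw [this]
      rw [sub_pos, one_mul, div_one, mul_one, div_lt_iff₀ (by positivity), one_pow, mul_one,
        ← sub_pos]
      have : 5 / 9 * ((j : ℝ) + 3) - (1 + ((j : ℝ) + 4) / ((j : ℝ) + 1))
        = (5 * j ^ 2 + 2 * j - 30) / (9 * ((j : ℝ) + 1)) := by
        field_simp
        ring
      rw [this]
      apply div_pos _ (by positivity)
      nlinarith
    have h2 : ∀ᶠ x in 𝓝 (0 : ℝ), 0 < f x := by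
      apply c5.tendsto.eventually_const_lt
      rw [hf0]
      norm_num
    filter_upwards [h1, h2] with x h1 h2
    exact ⟨by linarith, h2⟩
  obtain ⟨δ₁, hδ₁, hball⟩ := Metric.eventually_nhds_iff.1 hev
  have hsub : Ioo (-(min δ δ₁)) (min δ δ₁) ⊆ Ioo (-δ) δ :=
    Ioo_subset_Ioo (neg_le_neg (min_le_left _ _)) (min_le_left _ _)
  refine ⟨min δ δ₁, by positivity, ψ, hsψ.mono hsub, ?_, ?_⟩
  · intro ρ hρ
    have hρ' := hsub hρ
    have hρ2 : dist ρ 0 < δ₁ := by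
      rw [Real.dist_eq, sub_zero, abs_lt]
      have h1 := hρ.1
      have h2 := hρ.2
      have h3 := min_le_right δ δ₁
      constructor <;> linarith
    obtain ⟨hb1, hb2⟩ := hball hρ2
    have hPx := hPpos ρ hρ'
    have hmx := (h ρ hρ').2.2.1
    refine ⟨(h ρ hρ').1, ?_, ?_, ?_⟩
    · rw [hdψ ρ hρ']
      exact hPx
    · have h1 := hbf ρ hρ'
      unfold bf at h1
      have h2 : deriv ψ ρ + 2 * ρ * deriv (deriv ψ) ρ = f ρ / ((j + 1) * m ρ) * deriv ψ ρ := by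
        rw [← h1, div_mul_cancel₀]
        rw [hdψ ρ hρ']
        exact hPx.ne'
      rw [h2, hdψ ρ hρ']
      positivity
    · rw [hdψ ρ hρ', hddψ ρ hρ']
      exact hb1
  · intro ρ hρ
    have hρ' : ρ ∈ Ioo (-δ) δ := by
      refine ⟨by linarith [hρ.1], lt_of_lt_of_le hρ.2 (min_le_left _ _)⟩
    obtain ⟨hψx, hZx, hmx, hden, h5, h6⟩ := h ρ hρ'
    have hPx := hPpos ρ hρ'
    have hρ0 := hρ.1
    have e1 : bf (deriv ψ) (deriv (deriv ψ)) =ᶠ[𝓝 ρ] fun x => f x / ((j + 1) * m x) := by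
      filter_upwards [isOpen_Ioo.mem_nhds hρ'] with x hx
      exact hbf x hx
    have h7 : HasDerivAt f _ ρ := h5.mul (h6.pow (j + 4))
    have h8 : HasDerivAt (fun x => f x / ((j + 1) * m x)) _ ρ :=
      h7.div ((hmd ρ hρ').const_mul ((j : ℝ) + 1)) (by positivity)
    have h9 := h8.congr_of_eventuallyEq e1
    refine h9.congr_deriv ?_
    have hmm : avg j f ρ = m ρ := rfl
    have hPP : Pm (j + 1) (m ρ) = P ρ := rfl
    have hbb := hbf ρ hρ'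
    have hff : f ρ = ψ ρ * Z ρ ^ (j + 4) := rfl
    have hav : avg (j + 2) (deriv f) ρ = (f ρ - ((j : ℝ) + 1) * m ρ) / (2 * ρ) := by
      have := hid ρ hρ'
      field_simp
      linarith
    have haa : af ψ (deriv ψ) ρ = 2 * ρ * P ρ / ψ ρ := by
      unfold af
      rw [hdψ ρ hρ']
    rw [hbb, haa, hav]
    unfold Zm fb
    rw [hPP, ← hff]
    have hZf : Z ρ ^ (j + 4 - 1) * Z ρ = Z ρ ^ (j + 4) := by
      rw [← pow_succ]
      congr 1
    have hden2 : 2 * (2 * ρ * P ρ / ψ ρ) + ((j + 1 : ℕ) : ℝ) ≠ 0 := by positivity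
    have hden3 : ((j : ℝ) + 1) * ψ ρ + 4 * ρ * P ρ ≠ 0 := hden.ne'
    have e5 : P ρ * Z ρ ^ (j + 4) + ψ ρ * (((j + 4 : ℕ) : ℝ) * Z ρ ^ (j + 4 - 1) *
        (Z ρ * P ρ * (2 * f ρ / (((j : ℝ) + 1) * m ρ) - 1) / (((j : ℝ) + 1) * ψ ρ + 4 * ρ * P ρ)))
        = f ρ * (P ρ / ψ ρ + ((j : ℝ) + 4) * P ρ * (2 * f ρ / (((j : ℝ) + 1) * m ρ) - 1) /
          (((j : ℝ) + 1) * ψ ρ + 4 * ρ * P ρ)) := by
      have : ψ ρ * (((j + 4 : ℕ) : ℝ) * Z ρ ^ (j + 4 - 1) *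
        (Z ρ * P ρ * (2 * f ρ / (((j : ℝ) + 1) * m ρ) - 1) / (((j : ℝ) + 1) * ψ ρ + 4 * ρ * P ρ)))
        = (Z ρ ^ (j + 4 - 1) * Z ρ) * ψ ρ * (((j : ℝ) + 4) *
        (P ρ * (2 * f ρ / (((j : ℝ) + 1) * m ρ) - 1) / (((j : ℝ) + 1) * ψ ρ + 4 * ρ * P ρ))) := by
        push_cast
        ring
      rw [this, hZf, hff]
      field_simp
    rw [e5]
    have e6 : (((j + 1 : ℕ) : ℝ) + 3) * (2 * ρ * P ρ / ψ ρ) * (2 * (f ρ / (((j : ℝ) + 1) * m ρ)) - 1)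
        / (2 * (2 * ρ * P ρ / ψ ρ) + ((j + 1 : ℕ) : ℝ)) = 2 * ρ * (((j : ℝ) + 4) * P ρ *
          (2 * f ρ / (((j : ℝ) + 1) * m ρ) - 1) / (((j : ℝ) + 1) * ψ ρ + 4 * ρ * P ρ)) := by
      push_cast at hden2 ⊢
      rw [div_eq_iff hden2]
      field_simp
      ring
    rw [e6]
    generalize (((j : ℝ) + 4) * P ρ *
          (2 * f ρ / (((j : ℝ) + 1) * m ρ) - 1) / (((j : ℝ) + 1) * ψ ρ + 4 * ρ * P ρ)) = S
    push_cast
    generalize f ρ = F at *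
    generalize m ρ = M at *
    field_simp
    ring

end Vale.Agent.P252
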