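import Mathlib
import Vale.Agent.P252.Alg
import Vale.Agent.P252.GlobalODE

/-!
The planar system `2ρ a' = a(1+b-a)`, `2ρ b' = b(...)` and its trapping region.
-/

namespace Vale.Agent.P252

open Filter Topology Set MeasureTheory
open scoped ContDiff NNReal

/-- vector field -/
noncomputable def vf (k : ℝ) (x : ℝ × ℝ) : ℝ × ℝ := (fa x.1 x.2, fb k x.1 x.2)

/-- box -/
def box : Set (ℝ × ℝ) := Icc 0 (9 / 2) ×ˢ Icc 0 (7 / 2)

/-- trapping region -/
def reg : Set (ℝ × ℝ) := {x | 0 < x.1 ∧ 0 < x.2 ∧ 0 < 9 / 2 - x.1 ∧ 0 < 1 + 5 / 9 * x.1 - x.2}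

/-- projection to the box -/
noncomputable def pr (x : ℝ × ℝ) : ℝ × ℝ := (max 0 (min (9 / 2) x.1), max 0 (min (7 / 2) x.2))

lemma reg_subset_box : reg ⊆ box := by
  rintro ⟨a, b⟩ ⟨h1, h2, h3, h4⟩
  simp only at h1 h2 h3 h4
  refine ⟨⟨h1.le, by simp only; linarith⟩, ⟨h2.le, by simp only; linarith⟩⟩

lemma isOpen_reg : IsOpen reg := by
  unfold reg
  refine IsOpen.and (isOpen_lt continuous_const continuous_fst)
    (IsOpen.and (isOpen_lt continuous_const continuous_snd)
    (IsOpen.and (isOpen_lt continuous_const (by fun_prop))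
      (isOpen_lt continuous_const (by fun_prop))))

lemma pr_mem (x : ℝ × ℝ) : pr x ∈ box := by
  refine ⟨⟨le_max_left _ _, max_le (by norm_num) (min_le_left _ _)⟩,
    ⟨le_max_left _ _, max_le (by norm_num) (min_le_left _ _)⟩⟩

lemma pr_of_mem {x : ℝ × ℝ} (h : x ∈ box) : pr x = x := by
  obtain ⟨⟨h1, h2⟩, ⟨h3, h4⟩⟩ := h
  unfold pr
  rw [min_eq_right h2, max_eq_right h1, min_eq_right h4, max_eq_right h3]

lemma lipschitz_pr : LipschitzWith 1 pr := by
  have h1 : LipschitzWith 1 fun x : ℝ × ℝ => max 0 (min (9 / 2) x.1) :=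
    (LipschitzWith.prod_fst.const_min _).const_max _
  have h2 : LipschitzWith 1 fun x : ℝ × ℝ => max 0 (min (7 / 2) x.2) :=
    (LipschitzWith.prod_snd.const_min _).const_max _
  have h3 := h1.prodMk h2
  rw [max_self] at h3
  exact h3

lemma contDiffAt_vf {k : ℝ} (hk : 0 < k) {x : ℝ × ℝ} (hx : 0 ≤ x.1) {n : WithTop ℕ∞} :
    ContDiffAt ℝ n (vf k) x := by
  unfold vf
  refine ContDiffAt.prodMk ?_ ?_
  · unfold fa
    fun_prop
  · unfold fb
    have : 2 * x.1 + k ≠ 0 := by positivity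
    have h1 : ContDiffAt ℝ n (fun x : ℝ × ℝ => (k + 3) * x.1 * (2 * x.2 - 1) / (2 * x.1 + k)) x :=
      ContDiffAt.div (by fun_prop) (by fun_prop) this
    exact contDiffAt_snd.mul (ContDiffAt.add (by fun_prop) h1)

lemma isCompact_box : IsCompact box := isCompact_Icc.prod isCompact_Icc

lemma convex_box : Convex ℝ box := (convex_Icc _ _).prod (convex_Icc _ _)

/-- The global solution of the truncated system, starting in `reg` at time `ρ₀ > 0`. -/
theorem planar_global {k : ℝ} (hk : 9 ≤ k) {ρ₀ : ℝ} (hρ₀ : 0 < ρ₀) {x₀ : ℝ × ℝ} (hx₀ : x₀ ∈ reg) :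
    ∃ (γ : ℝ → ℝ × ℝ) (f : ℝ → ℝ × ℝ → ℝ × ℝ) (K : ℝ≥0), γ ρ₀ = x₀ ∧
      (∀ t, LipschitzWith K (f t)) ∧
      (∀ t, ρ₀ / 2 ≤ t → ∀ x ∈ reg, f t x = (1 / (2 * t)) • vf k x) ∧
      (∀ t, HasDerivAt γ (f t (γ t)) t) ∧ (∀ t, ρ₀ ≤ t → γ t ∈ reg) := by
  have hk0 : 0 < k := by linarith
  have hcd : ContDiffOn ℝ 1 (vf k) box := fun x hx =>
    (contDiffAt_vf hk0 hx.1.1).contDiffWithinAt
  obtain ⟨K, hK⟩ := hcd.exists_lipschitzOnWith one_ne_zero convex_box isCompact_box
  obtain ⟨C, hC⟩ := isCompact_box.exists_bound_of_continuousOn hcd.continuousOn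
  set f : ℝ → ℝ × ℝ → ℝ × ℝ := fun t x => (1 / (2 * max t (ρ₀ / 2))) • vf k (pr x) with hf
  have hmax : ∀ t, 0 < max t (ρ₀ / 2) := fun t => lt_max_of_lt_right (by linarith)
  have hmax2 : ∀ t, 1 / (2 * max t (ρ₀ / 2)) ≤ 1 / ρ₀ := by
    intro t
    apply one_div_le_one_div_of_le hρ₀
    have := le_max_right t (ρ₀ / 2)
    linarith
  have hLip : ∀ t, LipschitzWith (Real.toNNReal (1 / ρ₀) * K) (f t) := by
    intro t
    have h1 : LipschitzWith K fun x => vf k (pr x) := by
      have h2 : LipschitzOnWith K (vf k) (pr '' univ) := hK.mono (by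
        rintro _ ⟨x, -, rfl⟩
        exact pr_mem x)
      have h3 := h2.comp lipschitz_pr.lipschitzOnWith (mapsTo_image _ _)
      rw [mul_one] at h3
      rw [← lipschitzOnWith_univ]
      exact h3
    apply LipschitzWith.of_dist_le_mul
    intro x y
    rw [hf]
    simp only
    rw [dist_smul₀, Real.norm_of_nonneg (by have := hmax t; positivity)]
    have h2 := h1.dist_le_mul x y
    push_cast
    rw [Real.coe_toNNReal _ (by positivity), mul_assoc]
    exact mul_le_mul (hmax2 t) h2 dist_nonneg (by positivity)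
  have hC0 : 0 ≤ C := (norm_nonneg _).trans (hC _ (pr_mem 0))
  obtain ⟨γ, hγ0, hγ⟩ := global_ode (C := Real.toNNReal (1 / ρ₀ * C)) hLip
    (fun x => by
      rw [hf]
      simp only
      have h1 : Continuous fun t : ℝ => 1 / (2 * max t (ρ₀ / 2)) :=
        Continuous.div continuous_const (by fun_prop) (fun t => by
          have := hmax t
          positivity)
      exact h1.smul continuous_const)
    (fun t x => by
      rw [hf]
      simp only
      rw [norm_smul, Real.norm_of_nonneg (by have := hmax t; positivity),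
        Real.coe_toNNReal _ (by positivity)]
      exact mul_le_mul (hmax2 t) (hC _ (pr_mem x)) (norm_nonneg _) (by positivity)) ρ₀ x₀
  refine ⟨γ, f, _, hγ0, hLip, ?_, hγ, ?_⟩
  · intro t ht x hx
    rw [hf]
    simp only
    rw [pr_of_mem (reg_subset_box hx), max_eq_left ht]
  · -- trapping
    have hcont : Continuous γ := continuous_iff_continuousAt.2 fun t => (hγ t).continuousAt
    by_contra hcon
    push Not at hcon
    set S : Set ℝ := {t | ρ₀ ≤ t ∧ γ t ∉ reg} with hS
    have hSne : S.Nonempty := hcon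
    have hSb : BddBelow S := ⟨ρ₀, fun t ht => ht.1⟩
    have hSc : IsClosed S := by
      have : S = Ici ρ₀ ∩ γ ⁻¹' regᶜ := by
        ext t
        simp [hS]
      rw [this]
      exact isClosed_Ici.inter (isOpen_reg.isClosed_compl.preimage hcont)
    set T := sInf S with hT
    have hTS : T ∈ S := hSc.csInf_mem hSne hSb
    have hT1 : ρ₀ ≤ T := hTS.1
    have hlt : ∀ t, ρ₀ ≤ t → t < T → γ t ∈ reg := by
      intro t h1 h2
      by_contra h3
      exact absurd (csInf_le hSb (show t ∈ S from ⟨h1, h3⟩)) (not_le.2 h2)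
    have hT2 : ρ₀ < T := by
      rcases hT1.lt_or_eq with h | h
      · exact h
      · exfalso
        apply hTS.2
        rw [← h, hγ0]
        exact hx₀
    -- weak inequalities on [ρ₀, T]
    have hcl : ∀ t ∈ Icc ρ₀ T, 0 ≤ (γ t).1 ∧ 0 ≤ (γ t).2 ∧ 0 ≤ 9 / 2 - (γ t).1 ∧
        0 ≤ 1 + 5 / 9 * (γ t).1 - (γ t).2 := by
      intro t ht
      have hclosed : IsClosed {t | 0 ≤ (γ t).1 ∧ 0 ≤ (γ t).2 ∧ 0 ≤ 9 / 2 - (γ t).1 ∧
        0 ≤ 1 + 5 / 9 * (γ t).1 - (γ t).2} := by
        refine IsClosed.and (isClosed_le continuous_const (by fun_prop))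
          (IsClosed.and (isClosed_le continuous_const (by fun_prop))
          (IsClosed.and (isClosed_le continuous_const (by fun_prop))
          (isClosed_le continuous_const (by fun_prop))))
      have h1 : Ico ρ₀ T ⊆ {t | 0 ≤ (γ t).1 ∧ 0 ≤ (γ t).2 ∧ 0 ≤ 9 / 2 - (γ t).1 ∧
        0 ≤ 1 + 5 / 9 * (γ t).1 - (γ t).2} := by
        intro s hs
        obtain ⟨h1, h2, h3, h4⟩ := hlt s hs.1 hs.2
        exact ⟨h1.le, h2.le, h3.le, h4.le⟩
      have h2 := hclosed.closure_subset_iff.2 h1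
      rw [closure_Ico hT2.ne] at h2
      exact h2 ht
    have hbox : ∀ t ∈ Icc ρ₀ T, γ t ∈ box := by
      intro t ht
      obtain ⟨h1, h2, h3, h4⟩ := hcl t ht
      exact ⟨⟨h1, by linarith⟩, ⟨h2, by linarith⟩⟩
    have hder : ∀ t ∈ Icc ρ₀ T, HasDerivAt (fun t => (γ t).1)
        (1 / (2 * t) * fa (γ t).1 (γ t).2) t ∧ HasDerivAt (fun t => (γ t).2)
        (1 / (2 * t) * fb k (γ t).1 (γ t).2) t := by
      intro t ht
      have h1 := hγ t
      have h2 : f t (γ t) = (1 / (2 * t)) • vf k (γ t) := by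
        rw [hf]
        simp only
        rw [pr_of_mem (hbox t ht), max_eq_left (by linarith [ht.1])]
      rw [h2] at h1
      exact ⟨h1.fst, h1.snd⟩
    set M : ℝ := (4 * k + 9) / (2 * ρ₀) with hM
    have hMge : ∀ t ∈ Icc ρ₀ T, ∀ c, 0 ≤ c → c ≤ 4 * k + 9 → 1 / (2 * t) * c ≤ M := by
      intro t ht c hc1 hc2
      have ht0 : 0 < t := by linarith [ht.1]
      rw [hM, one_div, inv_mul_eq_div]
      apply div_le_div₀ (by linarith) hc2 (by positivity)
      linarith [ht.1]
    have hge : ∀ t ∈ Icc ρ₀ T, ∀ c g r : ℝ, 0 ≤ c → c ≤ 4 * k + 9 → 0 ≤ g → 0 ≤ r →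
        -M * g ≤ 1 / (2 * t) * (r - c * g) := by
      intro t ht c g r hc1 hc2 hg hr
      have h1 := hMge t ht c hc1 hc2
      have ht0 : 0 < t := by linarith [ht.1]
      have h2 : 0 ≤ 1 / (2 * t) * r := by positivity
      have h3 := mul_le_mul_of_nonneg_right h1 hg
      nlinarith
    apply hTS.2
    obtain ⟨i1, i2, i3, i4⟩ := hx₀
    rw [← hγ0] at i1 i2 i3 i4
    refine ⟨?_, ?_, ?_, ?_⟩
    · -- a > 0
      refine pos_of_deriv_ge (g := fun t => (γ t).1) (C := M) hT1 (fun t ht => (hder t ht).1) ?_ i1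
      intro t ht
      obtain ⟨h1, h2, h3, h4⟩ := hcl t ht
      have e : fa (γ t).1 (γ t).2 = (γ t).1 * (γ t).2 + (γ t).1 - (γ t).1 * (γ t).1 := by
        unfold fa
        ring
      rw [e]
      exact hge t ht _ _ _ h1 (by linarith) h1 (by positivity)
    · -- b > 0
      refine pos_of_deriv_ge (g := fun t => (γ t).2) (C := M) hT1 (fun t ht => (hder t ht).2) ?_ i2
      intro t ht
      obtain ⟨h1, h2, h3, h4⟩ := hcl t ht
      set a := (γ t).1
      set b := (γ t).2
      have hs : 0 < 2 * a + k := by positivity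
      have e : fb k a b = (b * (k + a) + b * ((k + 3) * a * (2 * b) / (2 * a + k)))
          - (k * b + (k + 3) * a / (2 * a + k)) * b := by
        unfold fb
        field_simp
        ring
      rw [e]
      have h5 : (k + 3) * a / (2 * a + k) ≤ (k + 3) / 2 := by
        rw [div_le_div_iff₀ hs (by norm_num)]
        nlinarith
      have h6 : k * b ≤ k * (7 / 2) := by
        apply mul_le_mul_of_nonneg_left _ hk0.le
        linarith
      exact hge t ht _ _ _ (by positivity) (by nlinarith) h2 (by positivity)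
    · -- 9/2 - a > 0
      refine pos_of_deriv_ge (g := fun t => 9 / 2 - (γ t).1) (C := M) hT1
        (fun t ht => ((hder t ht).1.const_sub (9 / 2))) ?_ i3
      intro t ht
      obtain ⟨h1, h2, h3, h4⟩ := hcl t ht
      set a := (γ t).1
      set b := (γ t).2
      have e : -(1 / (2 * t) * fa a b) = 1 / (2 * t) *
          (a * (1 + 5 / 9 * a - b) - (4 / 9 * a) * (9 / 2 - a)) := by
        unfold fa
        ring
      rw [e]
      exact hge t ht _ _ _ (by positivity) (by nlinarith) h3 (by positivity)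
    · -- 1 + 5/9 a - b > 0
      refine pos_of_deriv_ge (g := fun t => 1 + 5 / 9 * (γ t).1 - (γ t).2) (C := M) hT1
        (fun t ht => ((((hder t ht).1.const_mul (5 / 9)).const_add 1).sub (hder t ht).2)) ?_ i4
      intro t ht
      obtain ⟨h1, h2, h3, h4⟩ := hcl t ht
      set a := (γ t).1
      set b := (γ t).2
      have hs : 0 < 2 * a + k := by positivity
      have e : 5 / 9 * (1 / (2 * t) * fa a b) - 1 / (2 * t) * fb k a b = 1 / (2 * t) *
          ((5 / 9 * a * (4 / 9) * (9 / 2 - a)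
            + b / (2 * a + k) * (a * (16 / 3 * (9 / 2 - a) + (5 / 9 * k ^ 2 - 2 * k - 27))
              + 6 * a * (1 + 5 / 9 * a - b)))
          - (5 / 9 * a + b * k ^ 2 / (2 * a + k)) * (1 + 5 / 9 * a - b)) := by
        unfold fa fb
        field_simp
        ring
      rw [e]
      have h5 : b * k ^ 2 / (2 * a + k) ≤ 7 / 2 * k := by
        rw [div_le_iff₀ hs]
        have : b * k ^ 2 ≤ 7 / 2 * k ^ 2 := by
          apply mul_le_mul_of_nonneg_right _ (by positivity)
          linarith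
        nlinarith
      have h6 : 0 ≤ 5 / 9 * k ^ 2 - 2 * k - 27 := by nlinarith
      exact hge t ht _ _ _ (by positivity) (by nlinarith) h4 (by positivity)

end Vale.Agent.P252
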