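import Mathlib
import Vale.Agent.P252.Alg
import Vale.Agent.P252.Geom2
import Vale.Agent.P252.Geom5
import Vale.Agent.P252.Local
import Vale.Agent.P252.GlobalODE
import Vale.Agent.P252.Planar

/-!
Gluing of the local solution near `ρ = 0` with the global planar trajectory.
-/

namespace Vale.Agent.P252

open Filter Topology Set MeasureTheory
open scoped ContDiff NNReal

/-- the local requirements at `ρ ≥ 0`. -/
def Good (k : ℕ) (φ : ℝ → ℝ) (ρ : ℝ) : Prop :=
  ContDiffAt ℝ ∞ φ ρ ∧ 0 < φ ρ ∧ 0 < deriv φ ρ ∧ 0 < deriv φ ρ + 2 * ρ * deriv (deriv φ) ρ ∧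
    (0 < ρ → HasDerivAt (bf (deriv φ) (deriv (deriv φ)))
      (fb k (af φ (deriv φ) ρ) (bf (deriv φ) (deriv (deriv φ)) ρ) / (2 * ρ)) ρ)

lemma Good.congr {k : ℕ} {φ χ : ℝ → ℝ} {ρ : ℝ} (h : Good k φ ρ) (he : χ =ᶠ[𝓝 ρ] φ) :
    Good k χ ρ := by
  obtain ⟨h1, h2, h3, h4, h5⟩ := h
  have e1 : deriv χ =ᶠ[𝓝 ρ] deriv φ := he.deriv
  have e2 : deriv (deriv χ) =ᶠ[𝓝 ρ] deriv (deriv φ) := e1.deriv
  refine ⟨h1.congr_of_eventuallyEq he, ?_, ?_, ?_, ?_⟩
  · rw [he.self_of_nhds]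
    exact h2
  · rw [e1.self_of_nhds]
    exact h3
  · rw [e1.self_of_nhds, e2.self_of_nhds]
    exact h4
  · intro hρ
    have e3 : bf (deriv χ) (deriv (deriv χ)) =ᶠ[𝓝 ρ] bf (deriv φ) (deriv (deriv φ)) := by
      filter_upwards [e1, e2] with x hx1 hx2
      unfold bf
      rw [hx1, hx2]
    have e4 : af χ (deriv χ) ρ = af φ (deriv φ) ρ := by
      unfold af
      rw [he.self_of_nhds, e1.self_of_nhds]
    rw [e3.self_of_nhds, e4]
    exact (h5 hρ).congr_of_eventuallyEq e3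

/-- Existence of the profile `ψ`. -/
theorem exists_profile (k : ℕ) (hk : 9 ≤ k) : ∃ δ > 0, ∃ ψ : ℝ → ℝ,
    ContDiffOn ℝ ∞ ψ (Ioi (-δ)) ∧ ∀ ρ, 0 ≤ ρ → Good k ψ ρ := by
  obtain ⟨δ, hδ, φ, hφs, hφ, hφode⟩ := local_solution k hk
  have hkr : (9 : ℝ) ≤ k := by exact_mod_cast hk
  have hk0 : (0 : ℝ) < k := by linarith
  have hφs1 : ContDiffOn ℝ ∞ (deriv φ) (Ioo (-δ) δ) :=
    ((contDiffOn_infty_iff_deriv_of_isOpen isOpen_Ioo).1 hφs).2
  have hφs2 : ContDiffOn ℝ ∞ (deriv (deriv φ)) (Ioo (-δ) δ) :=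
    ((contDiffOn_infty_iff_deriv_of_isOpen isOpen_Ioo).1 hφs1).2
  have hφd : ∀ x ∈ Ioo (-δ) δ, HasDerivAt φ (deriv φ x) x := fun x hx =>
    ((hφs.contDiffAt (isOpen_Ioo.mem_nhds hx)).differentiableAt (by simp)).hasDerivAt
  have hφd1 : ∀ x ∈ Ioo (-δ) δ, HasDerivAt (deriv φ) (deriv (deriv φ) x) x := fun x hx =>
    ((hφs1.contDiffAt (isOpen_Ioo.mem_nhds hx)).differentiableAt (by simp)).hasDerivAt
  -- the local solution is good
  have hgoodφ : ∀ ρ ∈ Ico 0 δ, Good k φ ρ := by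
    intro ρ hρ
    have hρ' : ρ ∈ Ioo (-δ) δ := ⟨by linarith [hρ.1], hρ.2⟩
    obtain ⟨h1, h2, h3, h4⟩ := hφ ρ hρ'
    exact ⟨hφs.contDiffAt (isOpen_Ioo.mem_nhds hρ'), h1, h2, h3,
      fun h => hφode ρ ⟨h, hρ.2⟩⟩
  -- choose ρ₀
  have h0mem : (0 : ℝ) ∈ Ioo (-δ) δ := ⟨by linarith, hδ⟩
  have hev : ∀ᶠ ρ in 𝓝 (0 : ℝ), af φ (deriv φ) ρ < 9 / 2 := by
    have hc : ContinuousAt (af φ (deriv φ)) 0 := by
      unfold af
      exact ((continuousAt_const.mul continuousAt_id).mul (hφd1 0 h0mem).continuousAt).div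
        (hφd 0 h0mem).continuousAt (hφ 0 h0mem).1.ne'
    apply hc.tendsto.eventually_lt_const
    unfold af
    norm_num
  obtain ⟨δ₁, hδ₁, hball⟩ := Metric.eventually_nhds_iff.1 hev
  set ρ₀ : ℝ := min δ δ₁ / 2 with hρ₀def
  have hρ₀ : 0 < ρ₀ := by positivity
  have hρ₀δ : ρ₀ < δ := by
    have := min_le_left δ δ₁
    rw [hρ₀def]
    linarith
  have hρ₀δ₁ : ρ₀ < δ₁ := by
    have := min_le_right δ δ₁
    rw [hρ₀def]
    linarith
  -- local (a,b) curve
  set c : ℝ → ℝ × ℝ := fun ρ => (af φ (deriv φ) ρ, bf (deriv φ) (deriv (deriv φ)) ρ) with hc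
  have hcreg : ∀ ρ, 0 < ρ → ρ < δ → ρ < δ₁ → c ρ ∈ reg := by
    intro ρ h1 h2 h3
    have hρ' : ρ ∈ Ioo (-δ) δ := ⟨by linarith, h2⟩
    obtain ⟨g1, g2, g3, g4⟩ := hφ ρ hρ'
    refine ⟨?_, ?_, ?_, ?_⟩
    · change 0 < af φ (deriv φ) ρ
      unfold af
      positivity
    · change 0 < bf (deriv φ) (deriv (deriv φ)) ρ
      exact div_pos g3 g2
    · change 0 < 9 / 2 - af φ (deriv φ) ρ
      have : dist ρ 0 < δ₁ := by
        rw [Real.dist_eq, sub_zero, abs_of_pos h1]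
        exact h3
      have := hball this
      linarith
    · change 0 < 1 + 5 / 9 * af φ (deriv φ) ρ - bf (deriv φ) (deriv (deriv φ)) ρ
      have e : 1 + 5 / 9 * af φ (deriv φ) ρ - bf (deriv φ) (deriv (deriv φ)) ρ
          = 2 * ρ * (5 / 9 * deriv φ ρ ^ 2 - deriv (deriv φ) ρ * φ ρ) / (φ ρ * deriv φ ρ) := by
        unfold af bf
        field_simp
        ring
      rw [e]
      have : 0 < 5 / 9 * deriv φ ρ ^ 2 - deriv (deriv φ) ρ * φ ρ := by linarith
      positivity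
  have hcd : ∀ ρ ∈ Ioo 0 δ, HasDerivAt c ((1 / (2 * ρ)) • vf k (c ρ)) ρ := by
    intro ρ hρ
    have hρ' : ρ ∈ Ioo (-δ) δ := ⟨by linarith [hρ.1], hρ.2⟩
    obtain ⟨g1, g2, g3, g4⟩ := hφ ρ hρ'
    have hb := hφode ρ hρ
    have hρ0 := hρ.1
    have ha : HasDerivAt (af φ (deriv φ)) (fa (af φ (deriv φ) ρ)
        (bf (deriv φ) (deriv (deriv φ)) ρ) / (2 * ρ)) ρ := by
      have h1 : HasDerivAt (fun r : ℝ => 2 * r * deriv φ r / φ r) _ ρ :=
        (((hasDerivAt_id' ρ).const_mul 2).mul (hφd1 ρ hρ')).div (hφd ρ hρ') g1.ne'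
      refine h1.congr_deriv ?_
      simp only [Pi.mul_apply]
      unfold af bf fa
      field_simp
      ring
    refine (ha.prodMk hb).congr_deriv ?_
    rw [Prod.ext_iff]
    constructor
    · simp only [Prod.smul_fst, smul_eq_mul, vf, hc]
      ring
    · simp only [Prod.smul_snd, smul_eq_mul, vf, hc]
      ring
  -- global curve
  obtain ⟨γ, f, K, hγ0, hLip, hf, hγ, htrap⟩ := planar_global hkr hρ₀ (hcreg ρ₀ hρ₀ hρ₀δ hρ₀δ₁)
  have hγc : Continuous γ := continuous_iff_continuousAt.2 fun t => (hγ t).continuousAt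
  have hγev : γ =ᶠ[𝓝 ρ₀] c := by
    apply ODE_solution_unique_of_eventually (v := f) (s := fun _ => univ) (K := K)
    · exact Eventually.of_forall fun t => (hLip t).lipschitzOnWith
    · exact Eventually.of_forall fun t => ⟨hγ t, mem_univ _⟩
    · have : Ioo (ρ₀ / 2) (min δ δ₁) ∈ 𝓝 ρ₀ := isOpen_Ioo.mem_nhds
        ⟨by linarith, lt_min hρ₀δ hρ₀δ₁⟩
      filter_upwards [this] with t ht
      have t1 : 0 < t := by linarith [ht.1]
      have t2 : t < δ := lt_of_lt_of_le ht.2 (min_le_left _ _)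
      have t3 : t < δ₁ := lt_of_lt_of_le ht.2 (min_le_right _ _)
      refine ⟨?_, mem_univ _⟩
      rw [hf t ht.1.le _ (hcreg t t1 t2 t3)]
      exact hcd t ⟨t1, t2⟩
    · exact hγ0
  -- open interval on which γ is in the region
  obtain ⟨η, hη, hηball⟩ := Metric.eventually_nhds_iff.1 hγev
  set μ : ℝ := min (η / 2) (min (ρ₀ / 2) (δ - ρ₀)) with hμ
  have hμ0 : 0 < μ := by
    have : 0 < δ - ρ₀ := by linarith
    positivity
  have hμ1 : μ < η := by
    have := min_le_left (η / 2) (min (ρ₀ / 2) (δ - ρ₀))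
    linarith
  have hμ2 : μ ≤ ρ₀ / 2 := (min_le_right _ _).trans (min_le_left _ _)
  have hμ3 : μ ≤ δ - ρ₀ := (min_le_right _ _).trans (min_le_right _ _)
  have hγc' : ∀ t ∈ Ioo (ρ₀ - μ) (ρ₀ + μ), γ t = c t := by
    intro t ht
    apply hηball
    rw [Real.dist_eq, abs_lt]
    constructor <;> linarith [ht.1, ht.2]
  set I : Set ℝ := Ioi (ρ₀ - μ) with hI
  have hIreg : ∀ t ∈ I, γ t ∈ reg := by
    intro t ht
    have ht' : ρ₀ - μ < t := ht
    rcases lt_or_ge t ρ₀ with h | h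
    · rw [hγc' t ⟨ht', by linarith⟩]
      exact hcreg t (by linarith) (by linarith) (by linarith)
    · exact htrap t h
  have hIpos : ∀ t ∈ I, 0 < t := by
    intro t ht
    have ht' : ρ₀ - μ < t := ht
    linarith
  have hγI : ∀ t ∈ I, HasDerivAt γ ((1 / (2 * t)) • vf k (γ t)) t := by
    intro t ht
    have ht' : ρ₀ - μ < t := ht
    have := hγ t
    rwa [hf t (by linarith) _ (hIreg t ht)] at this
  -- γ is smooth
  have hγs : ContDiffOn ℝ ∞ γ I := by
    apply bootstrap (F := fun q : ℝ × (ℝ × ℝ) => (1 / (2 * q.1)) • vf k q.2) isOpen_Ioi hγI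
    intro t ht
    have ht0 := hIpos t ht
    have h1 : ContDiffAt ℝ ∞ (fun q : ℝ × (ℝ × ℝ) => 1 / (2 * q.1)) (t, γ t) := by
      apply ContDiffAt.div contDiffAt_const (by fun_prop)
      simp only
      positivity
    have h2 : ContDiffAt ℝ ∞ (fun q : ℝ × (ℝ × ℝ) => vf k q.2) (t, γ t) := by
      have h3 : ContDiffAt ℝ ∞ (vf k) (γ t) := contDiffAt_vf hk0 (hIreg t ht).1.le
      exact h3.comp (t, γ t) contDiffAt_snd
    exact h1.smul h2
  -- the function H
  set A : ℝ → ℝ := fun t => (γ t).1 with hA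
  set B : ℝ → ℝ := fun t => (γ t).2 with hB
  set q : ℝ → ℝ := fun t => A t / (2 * t) with hq
  set Hf : ℝ → ℝ := fun t => φ ρ₀ * Real.exp (∫ s in ρ₀..t, q s) with hH
  have hAs : ContDiffOn ℝ ∞ A I := fun t ht => (contDiff_fst.contDiffAt).comp_contDiffWithinAt t (hγs t ht)
  have hqs : ContDiffOn ℝ ∞ q I := by
    apply hAs.div (by fun_prop)
    intro t ht
    have := hIpos t ht
    positivity
  have hρ₀I : ρ₀ ∈ I := by
    change ρ₀ - μ < ρ₀
    linarith
  have hHd : ∀ t ∈ I, HasDerivAt Hf (Hf t * q t) t := by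
    intro t ht
    have hsub : uIcc ρ₀ t ⊆ I := by
      intro s hs
      have h1 : ρ₀ - μ < ρ₀ := hρ₀I
      have h2 : ρ₀ - μ < t := ht
      change ρ₀ - μ < s
      have h3 := hs.1
      have : ρ₀ - μ < min ρ₀ t := lt_min h1 h2
      exact lt_of_lt_of_le this h3
    have h1 : IntervalIntegrable q volume ρ₀ t := (hqs.continuousOn.mono hsub).intervalIntegrable
    have h2 : ContinuousAt q t := hqs.continuousOn.continuousAt (isOpen_Ioi.mem_nhds ht)
    have h3 : StronglyMeasurableAtFilter q (𝓝 t) volume :=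
      hqs.continuousOn.stronglyMeasurableAtFilter isOpen_Ioi t ht
    have h4 := (intervalIntegral.integral_hasDerivAt_right h1 h3 h2).exp.const_mul (φ ρ₀)
    refine h4.congr_deriv ?_
    rw [hH]
    ring
  have hHs : ContDiffOn ℝ ∞ Hf I := by
    -- pair with q through bootstrap in one variable
    rw [contDiffOn_infty]
    intro n
    induction n with
    | zero =>
      simp only [Nat.cast_zero, contDiffOn_zero]
      exact fun t ht => (hHd t ht).continuousAt.continuousWithinAt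
    | succ n ih =>
      rw [Nat.cast_add, Nat.cast_one, contDiffOn_succ_iff_deriv_of_isOpen isOpen_Ioi]
      refine ⟨fun t ht => (hHd t ht).differentiableAt.differentiableWithinAt, fun h =>
        absurd h (by exact_mod_cast (WithTop.natCast_ne_top n)), ?_⟩
      have h1 : ContDiffOn ℝ n (fun t => Hf t * q t) I :=
        ih.mul (hqs.of_le (by exact_mod_cast le_top))
      exact h1.congr fun t ht => (hHd t ht).deriv
  have hHpos : ∀ t, 0 < Hf t := by
    intro t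
    have := (hφ ρ₀ ⟨by linarith, hρ₀δ⟩).1
    rw [hH]
    positivity
  -- H is good on I
  have hdH : ∀ t ∈ I, deriv Hf t = Hf t * q t := fun t ht => (hHd t ht).deriv
  have hAd : ∀ t ∈ I, HasDerivAt A (fa (A t) (B t) / (2 * t)) t := by
    intro t ht
    have h1 : HasDerivAt A (1 / (2 * t) * fa (A t) (B t)) t := (hγI t ht).fst
    refine h1.congr_deriv ?_
    ring
  have hBd : ∀ t ∈ I, HasDerivAt B (fb k (A t) (B t) / (2 * t)) t := by
    intro t ht
    have h1 : HasDerivAt B (1 / (2 * t) * fb k (A t) (B t)) t := (hγI t ht).snd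
    refine h1.congr_deriv ?_
    ring
  have hddH : ∀ t ∈ I, HasDerivAt (deriv Hf) (deriv Hf t * (B t - 1) / (2 * t)) t := by
    intro t ht
    have ht0 := hIpos t ht
    have e : deriv Hf =ᶠ[𝓝 t] fun s => Hf s * (A s / (2 * s)) := by
      filter_upwards [isOpen_Ioi.mem_nhds ht] with s hs
      exact hdH s hs
    have h1 : HasDerivAt (fun s => Hf s * (A s / (2 * s))) _ t :=
      (hHd t ht).mul ((hAd t ht).div ((hasDerivAt_id' t).const_mul 2) (by positivity))
    have h2 := h1.congr_of_eventuallyEq e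
    refine h2.congr_deriv ?_
    rw [hdH t ht, hq]
    simp only
    unfold fa
    field_simp
    ring
  have hafH : ∀ t ∈ I, af Hf (deriv Hf) t = A t := by
    intro t ht
    have ht0 := hIpos t ht
    have hH0 := hHpos t
    unfold af
    rw [hdH t ht, hq]
    field_simp
  have hdHpos : ∀ t ∈ I, 0 < deriv Hf t := by
    intro t ht
    have ht0 := hIpos t ht
    have hH0 := hHpos t
    have hA0 : 0 < A t := (hIreg t ht).1
    rw [hdH t ht, hq]
    positivity
  have hbfH : ∀ t ∈ I, bf (deriv Hf) (deriv (deriv Hf)) t = B t := by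
    intro t ht
    have ht0 := hIpos t ht
    have h1 := hdHpos t ht
    unfold bf
    rw [(hddH t ht).deriv]
    field_simp
    ring
  have hgoodH : ∀ t ∈ I, Good k Hf t := by
    intro t ht
    have ht0 := hIpos t ht
    have h1 := hdHpos t ht
    have hB0 : 0 < B t := (hIreg t ht).2.1
    refine ⟨hHs.contDiffAt (isOpen_Ioi.mem_nhds ht), hHpos t, h1, ?_, fun _ => ?_⟩
    · have h2 : deriv Hf t + 2 * t * deriv (deriv Hf) t = deriv Hf t * B t := by
        rw [(hddH t ht).deriv]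
        field_simp
        ring
      rw [h2]
      positivity
    · rw [hafH t ht, hbfH t ht]
      refine (hBd t ht).congr_of_eventuallyEq ?_
      filter_upwards [isOpen_Ioi.mem_nhds ht] with s hs
      exact hbfH s hs
  -- agreement near ρ₀
  have hagree : ∀ t ∈ Ioo (ρ₀ - μ) (ρ₀ + μ), Hf t = φ t := by
    have hsubδ : ∀ t ∈ Ioo (ρ₀ - μ) (ρ₀ + μ), t ∈ Ioo (-δ) δ := by
      intro t ht
      constructor <;> linarith [ht.1, ht.2]
    have hquot : ∀ t ∈ Ioo (ρ₀ - μ) (ρ₀ + μ), HasDerivAt (fun s => φ s / Hf s) 0 t := by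
      intro t ht
      have htI : t ∈ I := ht.1
      have ht0 := hIpos t htI
      have hH0 := hHpos t
      have h1 := (hφd t (hsubδ t ht)).div (hHd t htI) hH0.ne'
      have h2 : HasDerivAt (fun s => φ s / Hf s) _ t := h1
      refine h2.congr_deriv ?_
      have h3 : A t = af φ (deriv φ) t := by
        have := congrArg Prod.fst (hγc' t ht)
        exact this
      have h4 := (hφ t (hsubδ t ht)).1
      rw [hq]
      simp only
      rw [h3]
      unfold af
      field_simp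
      ring
    intro t ht
    have hconst : ∀ x ∈ Ioo (ρ₀ - μ) (ρ₀ + μ), φ x / Hf x = φ ρ₀ / Hf ρ₀ := by
      intro x hx
      have hρ₀mem : ρ₀ ∈ Ioo (ρ₀ - μ) (ρ₀ + μ) := ⟨by linarith, by linarith⟩
      exact isOpen_Ioo.is_const_of_deriv_eq_zero isPreconnected_Ioo
        (fun s hs => (hquot s hs).differentiableAt.differentiableWithinAt)
        (fun s hs => (hquot s hs).deriv) hx hρ₀mem
    have h1 := hconst t ht
    have h2 : Hf ρ₀ = φ ρ₀ := by
      rw [hH]
      simp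
    have h3 := (hφ ρ₀ ⟨by linarith, hρ₀δ⟩).1
    rw [h2, div_self h3.ne', div_eq_one_iff_eq (hHpos t).ne'] at h1
    exact h1.symm
  -- glued function
  refine ⟨δ, hδ, fun t => if t < ρ₀ then φ t else Hf t, ?_, ?_⟩
  · intro t ht
    have ht' : -δ < t := ht
    apply ContDiffAt.contDiffWithinAt
    rcases lt_or_ge t ρ₀ with h | h
    · have e : (fun t => if t < ρ₀ then φ t else Hf t) =ᶠ[𝓝 t] φ := by
        filter_upwards [isOpen_Iio.mem_nhds h] with s hs
        exact if_pos hs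
      exact (hφs.contDiffAt (isOpen_Ioo.mem_nhds ⟨ht', by linarith⟩)).congr_of_eventuallyEq e
    · have htI : t ∈ I := by
        change ρ₀ - μ < t
        linarith
      have e : (fun t => if t < ρ₀ then φ t else Hf t) =ᶠ[𝓝 t] Hf := by
        filter_upwards [isOpen_Ioi.mem_nhds htI] with s hs
        have hs' : ρ₀ - μ < s := hs
        by_cases h2 : s < ρ₀
        · rw [if_pos h2, hagree s ⟨hs', by linarith⟩]
        · rw [if_neg h2]
      exact (hgoodH t htI).1.congr_of_eventuallyEq e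
  · intro t ht
    rcases lt_or_ge t ρ₀ with h | h
    · have e : (fun t => if t < ρ₀ then φ t else Hf t) =ᶠ[𝓝 t] φ := by
        filter_upwards [isOpen_Iio.mem_nhds h] with s hs
        exact if_pos hs
      exact (hgoodφ t ⟨ht, by linarith⟩).congr e
    · have htI : t ∈ I := by
        change ρ₀ - μ < t
        linarith
      have e : (fun t => if t < ρ₀ then φ t else Hf t) =ᶠ[𝓝 t] Hf := by
        filter_upwards [isOpen_Ioi.mem_nhds htI] with s hs
        have hs' : ρ₀ - μ < s := hs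
        by_cases h2 : s < ρ₀
        · rw [if_pos h2, hagree s ⟨hs', by linarith⟩]
        · rw [if_neg h2]
      exact (hgoodH t htI).congr e

/-- Main theorem: smooth entire non-quadratic solutions of the affine maximal equation
in every dimension `n ≥ 10`. -/
theorem main (n : ℕ) (hn : 10 ≤ n) : ∃ u : (Fin n → ℝ) → ℝ,
    ContDiff ℝ ∞ u ∧ (∀ x, (hess u x).PosDef) ∧ (∀ x, AffineMaximalAt u x) ∧
    ¬ ∃ (A : Matrix (Fin n) (Fin n) ℝ) (b : Fin n → ℝ) (c : ℝ),
      ∀ x, u x = 1 / 2 * (x ⬝ᵥ (A.mulVec x)) + b ⬝ᵥ x + c := by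
  obtain ⟨k, rfl⟩ : ∃ k, n = k + 1 := ⟨n - 1, by omega⟩
  obtain ⟨δ, hδ, ψ, hs, hgood⟩ := exists_profile k (by omega)
  have h1 : ∀ ρ, 0 ≤ ρ → 0 < ψ ρ := fun ρ hρ => (hgood ρ hρ).2.1
  have h2 : ∀ ρ, 0 ≤ ρ → 0 < deriv ψ ρ := fun ρ hρ => (hgood ρ hρ).2.2.1
  have h3 : ∀ ρ, 0 ≤ ρ → 0 < deriv ψ ρ + 2 * ρ * deriv (deriv ψ) ρ :=
    fun ρ hρ => (hgood ρ hρ).2.2.2.1
  have h4 := fun ρ (hρ : 0 < ρ) => (hgood ρ hρ.le).2.2.2.2 hρ
  have hs1 := contDiffOn_deriv hs
  refine ⟨uf ψ, contDiff_uf hδ hs h1, fun x => ?_, fun x => ?_, uf_not_quadratic h1⟩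
  · exact posDef_hess_uf h1 (hasDerivAt_of_contDiffOn hδ hs) (hasDerivAt_of_contDiffOn hδ hs1)
      h2 h3 x
  · exact pde_all hδ hs h1 h2 h3 (by omega) h4 x

end Vale.Agent.P252
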